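import Vale.Agent.P061.Elim

namespace Vale.Agent.P061

open Finset

namespace Elim

variable {V E : Type} [Fintype V] [DecidableEq V] [Fintype E] [DecidableEq E] {w k : ℕ}
  (G : Elim V E w k)

theorem lo_lt (e : E) : G.rk (G.lo e) < G.rk (G.hi e) := G.N_lt _ _ (G.hi_mem e)

theorem hi_of_lo {v : V} {e : E} (h : G.lo e ∈ G.D v) : G.hi e ∈ G.D v ∨ G.hi e ∈ G.N v := 
  G.N_sub v _ h _ (G.hi_mem e)

theorem lo_of_hi {v : V} {e : E} (h : G.hi e ∈ G.D v) : G.lo e ∈ G.D v := 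
  G.D_sub v _ h (G.N_D _ _ (G.hi_mem e))

theorem not_D_of_N {v y : V} (h : y ∈ G.N v) : y ∉ G.D v := fun h2 =>
  absurd (G.D_le v y h2) (not_le.2 (G.N_lt v y h))

theorem rk_lt_z {v : V} (h : v ≠ G.z) : G.rk v < G.rk G.z := 
  lt_of_le_of_ne (G.rk_le v) fun e => h (G.rk_inj e)

theorem rk_lt_of_D {v x : V} (h : x ∈ G.D v) (hne : x ≠ v) : G.rk x < G.rk v := 
  lt_of_le_of_ne (G.D_le v x h) fun e => hne (G.rk_inj e)

theorem cr_compl (S : Finset V) (e : E) : G.cr Sᶜ e ↔ G.cr S e := by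
  simp only [cr, Finset.mem_compl]; tauto

theorem cost_compl (v : V) (ρ : Option V) (S : Finset V) : G.cost v ρ Sᶜ = G.cost v ρ S := by
  simp only [cost, cr_compl]

theorem empty_of_small {Z : Finset V} {v : V} (hv : v ∉ Z) (h : (G.dl Z).card < k) : Z = ∅ := by
  by_contra hne
  exact absurd (G.conn Z (Finset.nonempty_iff_ne_empty.2 hne) fun e => hv (e ▸ mem_univ v))
    (not_le.2 h)

theorem hole_lo {ρ : Option V} {e : E} (h : G.lo e ∈ G.HD ρ) :
    G.hi e ∈ G.HD ρ ∨ G.hi e ∈ G.HN ρ := by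
  cases ρ with
  | none => simp [HD] at h
  | some r => exact G.hi_of_lo h

theorem hole_hi {ρ : Option V} {e : E} (h : G.hi e ∈ G.HD ρ) : G.lo e ∈ G.HD ρ := by
  cases ρ with
  | none => simp [HD] at h
  | some r => exact G.lo_of_hi h

theorem HN_card (ρ : Option V) : (G.HN ρ).card ≤ w := by
  cases ρ with
  | none => simp [HN]
  | some r => exact G.N_card r

theorem HD_sub {v : V} {ρ : Option V} (h : G.In v ρ) : G.HD ρ ⊆ (G.D v).erase v := by
  cases ρ with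
  | none => simp [HD]
  | some r =>
    obtain ⟨h1, h2⟩ := h r rfl
    intro x hx
    refine Finset.mem_erase.2 ⟨?_, G.D_sub v r h1 hx⟩
    rintro rfl
    exact absurd (G.D_le r x hx) (not_le.2 (G.rk_lt_of_D h1 h2))

/-- the cut of a set inside `D v` avoiding the hole is located in the region -/
theorem region {v : V} {ρ : Option V} {Z : Finset V} (h1 : Z ⊆ G.D v)
    (h2 : Disjoint Z (G.HD ρ ∪ G.HN ρ)) {e : E} (h : G.cr Z e) :
    G.lo e ∈ G.D v ∧ G.lo e ∉ G.HD ρ := by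
  have hd := Finset.disjoint_left.1 h2
  unfold cr at h
  by_cases hlo : G.lo e ∈ Z
  · exact ⟨h1 hlo, fun h3 => hd hlo (Finset.mem_union_left _ h3)⟩
  · have hhi : G.hi e ∈ Z := by tauto
    exact ⟨G.lo_of_hi (h1 hhi), fun h3 => hd hhi (Finset.mem_union.2 (G.hole_lo h3))⟩

theorem cr_sub {v : V} {Z : Finset V} (h1 : Z ⊆ G.D v) {e : E} (h : G.cr Z e) :
    G.lo e ∈ G.D v := by
  unfold cr at h
  by_cases hlo : G.lo e ∈ Z
  · exact h1 hlo
  · have hhi : G.hi e ∈ Z := by tauto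
    exact G.lo_of_hi (h1 hhi)

theorem cost_anti {v r s : V} (h : r ∈ G.D s) (S : Finset V) :
    G.cost v (some s) S ≤ G.cost v (some r) S := by
  refine Finset.card_le_card fun e he => ?_
  rw [Finset.mem_filter] at he ⊢
  exact ⟨he.1, he.2.1, he.2.2.1, fun h3 => he.2.2.2 (G.D_sub s r h h3)⟩

theorem Wit.cr {v : V} {K : Finset V} {μ : ℕ} {e : E} {ρ : Option V} {S : Finset V} {a : V}
    (h : G.Wit v K μ e ρ S a) {S' : Finset V} (hK : Disjoint K S') (ha : a ∈ S') : G.cr S' e := by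
  have hd := Finset.disjoint_left.1 hK
  unfold Elim.cr
  rcases h.ends with ⟨h1, h2⟩ | ⟨h1, h2⟩
  · rw [h2]; exact fun h3 => hd h1 (h3.2 ha)
  · rw [h2]; exact fun h3 => hd h1 (h3.1 ha)

theorem Wit.out {v : V} {K : Finset V} {μ : ℕ} {e : E} {ρ : Option V} {S : Finset V} {a : V}
    (h : G.Wit v K μ e ρ S a) {ρ' : Option V} (hK : Disjoint K (G.HD ρ' ∪ G.HN ρ')) :
    G.lo e ∉ G.HD ρ' := by
  have hd := Finset.disjoint_left.1 hK
  intro h3
  rcases h.ends with ⟨h1, -⟩ | ⟨h1, -⟩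
  · exact hd h1 (Finset.mem_union_left _ h3)
  · exact hd h1 (Finset.mem_union.2 (G.hole_lo h3))

end Elim

end Vale.Agent.P061
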