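import Vale.Agent.P061.Elim

namespace Vale.Agent.P061

open Finset

theorem mem_cut {V E : Type} {ends : E → Sym2 V} {F : Finset E} {S : Finset V} {e : E} {a b : V}
    (h : ends e = s(a, b)) : e ∈ cut ends F S ↔ e ∈ F ∧ ¬ (a ∈ S ↔ b ∈ S) := by
  classical
  unfold cut
  rw [mem_filter]
  refine and_congr_right fun _ => ⟨?_, fun hh => ?_⟩
  · rintro ⟨x, y, h1, hx, hy⟩
    rw [h, Sym2.eq_iff] at h1
    rcases h1 with ⟨rfl, rfl⟩ | ⟨rfl, rfl⟩
    · exact fun hh => hy (hh.1 hx)
    · exact fun hh => hy (hh.2 hx)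
  · by_cases ha : a ∈ S
    · exact ⟨a, b, h, ha, fun hb => hh ⟨fun _ => hb, fun _ => ha⟩⟩
    · have hb : b ∈ S := by
        by_contra hb
        exact hh ⟨fun h' => absurd h' ha, fun h' => absurd h' hb⟩
      exact ⟨b, a, h.trans Sym2.eq_swap, hb, ha⟩

theorem exists_elim {V E : Type} [Fintype V] [DecidableEq V] [Fintype E] [DecidableEq E]
    [Nonempty V] (ends : E → Sym2 V) (hl : ∀ e, ¬ (ends e).IsDiag) (w k : ℕ) (rk : V → ℕ)
    (N : V → Finset V) (h1 : Function.Injective rk) (h2 : ∀ v, ∀ y ∈ N v, rk v < rk y)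
    (h3 : ∀ v, (N v).card ≤ w) (h4 : ∀ e x y, ends e = s(x, y) → rk x < rk y → y ∈ N x)
    (h5 : ∀ x, ∀ y ∈ N x, ∀ y' ∈ N x, rk y < rk y' → y' ∈ N y)
    (hc : ∀ S : Finset V, S.Nonempty → S ≠ univ → k ≤ (cut ends univ S).card) :
    ∃ G : Elim V E w k, ∀ e, ends e = s(G.lo e, G.hi e) := by
  classical
  have hlo : ∀ e, ∃ a b : V, ends e = s(a, b) ∧ rk a < rk b := by
    intro e
    have hd := hl e
    obtain ⟨s, hs⟩ : ∃ s, s = ends e := ⟨_, rfl⟩
    rw [← hs] at hd ⊢
    induction s using Sym2.ind with
    | _ a b =>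
      have hab : a ≠ b := fun hh => hd (Sym2.mk_isDiag_iff.2 hh)
      rcases lt_or_gt_of_ne (fun hh => hab (h1 hh)) with h | h
      · exact ⟨a, b, rfl, h⟩
      · exact ⟨b, a, Sym2.eq_swap, h⟩
  choose lo hi he hlt using hlo
  obtain ⟨z, hz⟩ := Finite.exists_max rk
  have hle : ∀ x v, Relation.ReflTransGen (fun a b => b ∈ N a) x v → rk x ≤ rk v := by
    intro x v h
    induction h with
    | refl => exact le_rfl
    | tail _ hb ih => exact ih.trans (h2 _ _ hb).le
  have hlam : ∀ n u, rk z - rk u = n → ∀ x y, Relation.ReflTransGen (fun a b => b ∈ N a) u x →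
      Relation.ReflTransGen (fun a b => b ∈ N a) u y →
      Relation.ReflTransGen (fun a b => b ∈ N a) x y ∨
        Relation.ReflTransGen (fun a b => b ∈ N a) y x := by
    intro n
    induction n using Nat.strong_induction_on with
    | _ n ih =>
      intro u hu x y hx hy
      rcases hx.cases_head with hux | ⟨a, ha, hax⟩
      · exact Or.inl (hux ▸ hy)
      rcases hy.cases_head with huy | ⟨b, hb, hby⟩
      · exact Or.inr (huy ▸ hx)
      have ra := h2 _ _ ha
      have rb := h2 _ _ hb
      have za := hz a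
      have zb := hz b
      rcases lt_trichotomy (rk a) (rk b) with h | h | h
      · exact ih (rk z - rk a) (by omega) a rfl x y hax
          (Relation.ReflTransGen.head (h5 u a ha b hb h) hby)
      · have hab := h1 h
        exact ih (rk z - rk a) (by omega) a rfl x y hax (hab ▸ hby)
      · exact ih (rk z - rk b) (by omega) b rfl x y
          (Relation.ReflTransGen.head (h5 u b hb a ha h) hax) hby
  have hsub : ∀ v x, Relation.ReflTransGen (fun a b => b ∈ N a) x v → ∀ y ∈ N x,
      Relation.ReflTransGen (fun a b => b ∈ N a) y v ∨ y ∈ N v := by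
    intro v x h
    induction h using Relation.ReflTransGen.head_induction_on with
    | refl => exact fun y hy => Or.inr hy
    | @head x a ha hav ih =>
      intro y hy
      rcases lt_trichotomy (rk a) (rk y) with h | h | h
      · exact ih y (h5 x a ha y hy h)
      · exact Or.inl (h1 h ▸ hav)
      · exact Or.inl (Relation.ReflTransGen.head (h5 x y hy a ha h) hav)
  refine ⟨{ rk := rk, lo := lo, hi := hi
            D := fun v => univ.filter fun x => Relation.ReflTransGen (fun a b => b ∈ N a) x v
            N := N, z := z, rk_inj := h1, rk_le := hz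
            self_mem := fun v => mem_filter.2 ⟨mem_univ _, Relation.ReflTransGen.refl⟩
            D_le := fun v x hx => hle x v (mem_filter.1 hx).2
            D_sub := fun v x hx y hy =>
              mem_filter.2 ⟨mem_univ _, (mem_filter.1 hy).2.trans (mem_filter.1 hx).2⟩
            lam := fun x y u hx hy => ?_
            N_lt := h2, N_card := h3
            N_sub := fun v x hx y hy => ?_
            N_D := fun x y hy => mem_filter.2 ⟨mem_univ _, Relation.ReflTransGen.single hy⟩
            hi_mem := fun e => h4 e _ _ (he e) (hlt e)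
            conn := fun S hS hS' => ?_ }, he⟩
  · rcases hlam _ u rfl x y (mem_filter.1 hx).2 (mem_filter.1 hy).2 with h | h
    · exact Or.inl (mem_filter.2 ⟨mem_univ _, h⟩)
    · exact Or.inr (mem_filter.2 ⟨mem_univ _, h⟩)
  · rcases hsub v x (mem_filter.1 hx).2 y hy with h | h
    · exact Or.inl (mem_filter.2 ⟨mem_univ _, h⟩)
    · exact Or.inr h
  · refine (hc S hS hS').trans (card_le_card fun e h => ?_)
    exact mem_filter.2 ((mem_cut (he e)).1 h)

end Vale.Agent.P061
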