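import Vale.Agent.P061.Basic

namespace Vale.Agent.P061

open Finset

namespace Elim

variable {V E : Type} [Fintype V] [DecidableEq V] [Fintype E] [DecidableEq E] {w k : ℕ}
  (G : Elim V E w k)

/-- closed sets at mutually independent levels above a hole use up its boundary -/
theorem chain_le {μ : ℕ} (hk : 3 * (w + 1) * μ ≤ k) (r : V) (J : Finset V) (a : V → V)
    (Z : V → Finset V) (hJ : J.card ≤ w + 1)
    (h1 : ∀ v ∈ J, r ∈ G.D v ∧ r ≠ v ∧ a v ∉ G.D r ∧ Z v ⊆ (G.D v).erase v ∧ a v ∈ Z v ∧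
      G.cost v (some r) (Z v) < 3 * μ)
    (h2 : ∀ i ∈ J, ∀ j ∈ J, G.rk i < G.rk j → a j ∉ G.D i) : J.card ≤ w := by
  have hex : ∀ j ∈ J, ∃ x ∈ G.N r, x ∈ Z j ∧ ∀ i ∈ J, G.rk i < G.rk j → x ∉ Z i := by
    intro j hj
    by_contra hcon
    push Not at hcon
    set Y : Finset V := (Z j).filter fun x => x ∉ G.D r ∧ ∀ i ∈ J, G.rk i < G.rk j → x ∉ Z i
      with hY
    obtain ⟨-, -, b3, b4, b5, -⟩ := h1 j hj
    have hYD : Y ⊆ G.D j := (Finset.filter_subset _ _).trans (b4.trans (Finset.erase_subset _ _))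
    have haY : a j ∈ Y := Finset.mem_filter.2 ⟨b5, b3, fun i hi hij h =>
      h2 i hi j hj hij (Finset.erase_subset _ _ ((h1 i hi).2.2.2.1 h))⟩
    have hdis : Disjoint Y (G.HD (some r) ∪ G.HN (some r)) := by
      refine Finset.disjoint_left.2 fun x hx hx' => ?_
      obtain ⟨c1, c2, c3⟩ := Finset.mem_filter.1 hx
      rcases Finset.mem_union.1 hx' with h | h
      · exact c2 h
      · obtain ⟨i, hi, hij, hxi⟩ := hcon x h c1
        exact c3 i hi hij hxi
    have hsub : G.dl Y ⊆ J.biUnion fun i => univ.filter fun e =>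
        G.cr (Z i) e ∧ G.lo e ∈ G.D i ∧ G.lo e ∉ G.HD (some r) := by
      intro e he
      have he' := (Finset.mem_filter.1 he).2
      obtain ⟨-, c2⟩ := G.region hYD hdis he'
      have c3 : G.hi e ∉ G.D r := fun h => c2 (G.lo_of_hi h)
      have c2' : G.lo e ∉ G.D r := c2
      obtain ⟨i, hi, hci⟩ : ∃ i ∈ J, G.cr (Z i) e := by
        by_contra hno
        push Not at hno
        apply he'
        simp only [cr, not_not] at hno
        simp only [hY, Finset.mem_filter, c2', c3, not_false_eq_true, true_and, hno j hj]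
        refine and_congr_right fun _ => forall₂_congr fun i hi => ?_
        rw [hno i hi]
      exact Finset.mem_biUnion.2 ⟨i, hi, Finset.mem_filter.2 ⟨mem_univ _, hci,
        G.cr_sub ((h1 i hi).2.2.2.1.trans (Finset.erase_subset _ _)) hci, c2⟩⟩
    have hcard : (G.dl Y).card ≤ J.card * (3 * μ - 1) := by
      refine (Finset.card_le_card hsub).trans (Finset.card_biUnion_le.trans ?_)
      rw [← smul_eq_mul]
      refine Finset.sum_le_card_nsmul _ _ _ fun i hi => ?_
      have := (h1 i hi).2.2.2.2.2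
      unfold cost at this
      omega
    have hμ : 0 < 3 * μ := lt_of_le_of_lt (Nat.zero_le _) (h1 j hj).2.2.2.2.2
    have hlt : (G.dl Y).card < k := by
      have d1 : J.card * (3 * μ - 1) ≤ (w + 1) * (3 * μ - 1) := Nat.mul_le_mul_right _ hJ
      have d2 : (w + 1) * (3 * μ - 1) < (w + 1) * (3 * μ) :=
        Nat.mul_lt_mul_of_pos_left (by omega) (by omega)
      nlinarith
    have hYe : Y = ∅ := G.empty_of_small (v := j)
      (fun h => by simpa using b4 (Finset.filter_subset _ _ h)) hlt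
    simp [hYe] at haY
  choose! x hx1 hx2 hx3 using hex
  refine le_trans (Finset.card_le_card_of_injOn x (fun j hj => hx1 j hj) ?_) (G.N_card r)
  intro i hi j hj hij
  by_contra hne
  rcases lt_or_gt_of_ne (fun e => hne (G.rk_inj e) : G.rk i ≠ G.rk j) with h | h
  · exact hx3 j hj i hi h (hij ▸ hx2 i hi)
  · exact hx3 i hi j hj h (hij ▸ hx2 j hj)

end Elim

end Vale.Agent.P061
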