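import Vale.Agent.P061.Split

namespace Vale.Agent.P061

open Finset

namespace Elim

variable {V E : Type} [Fintype V] [DecidableEq V] [Fintype E] [DecidableEq E] {w k : ℕ}
  (G : Elim V E w k)

variable {p : V → V} {μ : ℕ} {ev : V → E}

theorem closed (hp : G.Pm p) (hh : G.Heavy p) (hs : G.Sel p μ ev) (hw : 1 ≤ w) (hμ : w * μ ≤ k)
    {v : V} {ρ : Option V} {S : Finset V} (hv : v ≠ G.z) (hρ : G.In v ρ) (hn : ¬ G.Spans p v ρ)
    (hc : G.cr S (ev v)) (h : G.cost v ρ S < μ) :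
    ∃ (a : V) (Z : Finset V), (a = G.lo (ev v) ∨ a = G.hi (ev v)) ∧ a ∉ G.HD ρ ∧
      Z ⊆ (G.D v).erase v ∧ a ∈ Z ∧ G.cost v ρ Z < 3 * μ := by
  obtain ⟨u, hu, hd⟩ : ∃ u, (u = v ∨ u = p v) ∧ Disjoint (G.cls p v u) (G.HD ρ ∪ G.HN ρ) := by
    by_contra hcon
    push Not at hcon
    exact hn ⟨hcon v (Or.inl rfl), hcon _ (Or.inr rfl)⟩
  have hsp := G.split' hp hh hw hμ hv hu hd h
  obtain ⟨S', hS1, hS2, hS3⟩ : ∃ S' : Finset V, Disjoint (G.cls p v u) S' ∧ G.cr S' (ev v) ∧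
      G.cost v ρ S' < μ := by
    by_cases huS : u ∈ S
    · refine ⟨Sᶜ, Finset.disjoint_left.2 fun x hx hx' => ?_, (G.cr_compl _ _).2 hc,
        by rwa [G.cost_compl]⟩
      exact Finset.mem_compl.1 hx' ((hsp x hx).2 huS)
    · exact ⟨S, Finset.disjoint_left.2 fun x hx hx' => huS ((hsp x hx).1 hx'), hc, h⟩
  obtain ⟨hloc, hends⟩ := G.mem_Bu hp hv (hs v hv).1
  have hd1 := Finset.disjoint_left.1 hS1
  have hd2 := Finset.disjoint_left.1 hd
  obtain ⟨a, ha1, ha2, ha3, ha4⟩ : ∃ a, (a = G.lo (ev v) ∨ a = G.hi (ev v)) ∧ a ∉ G.HD ρ ∧ a ∈ S' ∧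
      ((G.lo (ev v) ∈ G.cls p v u ∧ G.hi (ev v) = a) ∨
        (G.hi (ev v) ∈ G.cls p v u ∧ G.lo (ev v) = a)) := by
    have hor : G.lo (ev v) ∈ G.cls p v u ∨ G.hi (ev v) ∈ G.cls p v u := by
      rcases hu with rfl | rfl <;> tauto
    unfold cr at hS2
    rcases hor with h1 | h1
    · have := hd1 h1
      exact ⟨_, Or.inr rfl, fun h2 => hd2 h1 (Finset.mem_union_left _ (G.hole_hi h2)), by tauto,
        Or.inl ⟨h1, rfl⟩⟩
    · have := hd1 h1
      exact ⟨_, Or.inl rfl, fun h2 => hd2 h1 (Finset.mem_union.2 (G.hole_lo h2)), by tauto,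
        Or.inr ⟨h1, rfl⟩⟩
  by_contra hcon
  push Not at hcon
  exact (hs v hv).2 u hu ρ S' a ⟨hρ, hd, hS1, hS3, hloc, ha4, ha3, fun Z h1 h2 =>
    hcon a Z ha1 ha2 h1 h2⟩

theorem cost_ge (hp : G.Pm p) (hh : G.Heavy p) (hs : G.Sel p μ ev) (hw : 1 ≤ w)
    (hk : 3 * (w + 1) * μ ≤ k) {v : V} {S : Finset V} (hv : v ≠ G.z) (hc : G.cr S (ev v)) :
    μ ≤ G.cost v none S := by
  by_contra hlt
  push Not at hlt
  obtain ⟨a, Z, -, -, h1, h2, h3⟩ := G.closed hp hh hs hw (by nlinarith) hv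
    (ρ := none) (fun r hr => by cases hr) (fun h => h.1 (by simp [HD, HN])) hc hlt
  have h4 : (G.dl Z).card ≤ G.cost v none Z := by
    refine Finset.card_le_card fun e he => ?_
    have he' := (Finset.mem_filter.1 he).2
    exact Finset.mem_filter.2 ⟨mem_univ _, he',
      G.cr_sub (h1.trans (Finset.erase_subset _ _)) he', by simp [HD]⟩
  have h5 : Z = ∅ := G.empty_of_small (v := v) (fun h => by simpa using h1 h) (by nlinarith)
  simp [h5] at h2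

theorem spans_of_mem (hp : G.Pm p) (hs : G.Sel p μ ev) {i j a : V} (hj : j ≠ G.z)
    (ha : a = G.lo (ev j) ∨ a = G.hi (ev j)) (hi : a ∈ G.D i) : G.Spans p j (some i) := by
  have hlo : G.lo (ev j) ∈ G.D i := by
    rcases ha with rfl | rfl
    · exact hi
    · exact G.lo_of_hi hi
  have h1 : G.lo (ev j) ∈ G.HD (some i) ∪ G.HN (some i) := Finset.mem_union_left _ hlo
  have h2 : G.hi (ev j) ∈ G.HD (some i) ∪ G.HN (some i) := Finset.mem_union.2 (G.hi_of_lo hlo)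
  rcases (G.mem_Bu hp hj (hs j hj).1).2 with ⟨h3, h4⟩ | ⟨h3, h4⟩
  · exact ⟨fun h => Finset.disjoint_left.1 h h3 h1, fun h => Finset.disjoint_left.1 h h4 h2⟩
  · exact ⟨fun h => Finset.disjoint_left.1 h h3 h2, fun h => Finset.disjoint_left.1 h h4 h1⟩

end Elim

end Vale.Agent.P061
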