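import Mathlib

namespace Vale.Agent.P061

open Finset

theorem indep {ι : Type} (r : ι → ι → Prop) (η m : ℕ) (I : Finset ι)
    (h : ∀ i ∈ I, ∀ T : Finset ι, T ⊆ I → (∀ j ∈ T, j ≠ i ∧ r i j) → T.card ≤ η)
    (hI : m * (2 * η + 1) ≤ I.card) :
    ∃ J : Finset ι, J ⊆ I ∧ J.card = m ∧ ∀ i ∈ J, ∀ j ∈ J, i ≠ j → ¬ r i j := by
  classical
  induction m generalizing I with
  | zero => exact ⟨∅, empty_subset _, rfl, by simp⟩
  | succ m ih =>
    have hout : ∀ i ∈ I, (I.filter fun j => j ≠ i ∧ r i j).card ≤ η := fun i hi =>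
      h i hi _ (filter_subset _ _) fun j hj => (mem_filter.1 hj).2
    have hpos : 0 < I.card := lt_of_lt_of_le (by positivity) hI
    have hin : ∃ i ∈ I, (I.filter fun j => i ≠ j ∧ r j i).card ≤ η := by
      by_contra hcon
      push Not at hcon
      have h1 : ∑ i ∈ I, (I.filter fun j => i ≠ j ∧ r j i).card =
          ∑ i ∈ I, (I.filter fun j => j ≠ i ∧ r i j).card := by
        simp only [card_filter]
        exact Finset.sum_comm
      have h2 : ∑ i ∈ I, (I.filter fun j => j ≠ i ∧ r i j).card ≤ ∑ _i ∈ I, η :=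
        sum_le_sum hout
      have h3 : ∑ _i ∈ I, η < ∑ i ∈ I, (I.filter fun j => i ≠ j ∧ r j i).card :=
        sum_lt_sum_of_nonempty (card_pos.1 hpos) hcon
      omega
    obtain ⟨i, hi, hi'⟩ := hin
    obtain ⟨B, hB⟩ : ∃ B : Finset ι, B = insert i ((I.filter fun j => j ≠ i ∧ r i j) ∪
      (I.filter fun j => i ≠ j ∧ r j i)) := ⟨_, rfl⟩
    have hBc : B.card ≤ 2 * η + 1 := by
      rw [hB]
      refine (card_insert_le _ _).trans ?_
      have := card_union_le (I.filter fun j => j ≠ i ∧ r i j) (I.filter fun j => i ≠ j ∧ r j i)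
      have := hout i hi
      omega
    have hc : m * (2 * η + 1) ≤ (I \ B).card := by
      have h1 := le_card_sdiff B I
      have h2 : (m + 1) * (2 * η + 1) = m * (2 * η + 1) + (2 * η + 1) := by ring
      omega
    obtain ⟨J, hJ, hJc, hJr⟩ := ih (I \ B)
      (fun a ha T hT hT' => h a (mem_sdiff.1 ha).1 T (hT.trans sdiff_subset) hT') hc
    have hno : ∀ j ∈ J, j ≠ i ∧ ¬ r i j ∧ ¬ r j i := by
      intro j hj
      obtain ⟨h1, h2⟩ := mem_sdiff.1 (hJ hj)
      rw [hB] at h2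
      simp only [mem_insert, mem_union, mem_filter, not_or, not_and] at h2
      exact ⟨h2.1, h2.2.1 h1 h2.1, h2.2.2 h1 (Ne.symm h2.1)⟩
    refine ⟨insert i J, insert_subset hi (hJ.trans sdiff_subset), ?_, ?_⟩
    · rw [card_insert_of_notMem (fun hh => (hno i hh).1 rfl), hJc]
    · intro a ha b hb hab
      rcases mem_insert.1 ha with ha' | ha'
      · rcases mem_insert.1 hb with hb' | hb'
        · exact absurd (ha'.trans hb'.symm) hab
        · rw [ha']; exact (hno b hb').2.1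
      · rcases mem_insert.1 hb with hb' | hb'
        · rw [hb']; exact (hno a ha').2.2
        · exact hJr a ha' b hb' hab

theorem comb_P (c s : ℕ) : ∃ g : ℕ, ∀ {ι α : Type} (J : Finset ι) (pat : ι → ι → α),
    (∀ j ∈ J, ∃ T : Finset α, T.card ≤ c ∧ ∀ i ∈ J, pat j i ∈ T) → g ≤ J.card →
    ∃ A : Finset ι, A ⊆ J ∧ A.card = s ∧ ∃ l ∈ J, l ∉ A ∧
      ∀ a ∈ A, ∀ b ∈ A, a ≠ b → pat a b = pat a l ∨ pat b a = pat b l := by
  classical
  induction s with
  | zero =>
    refine ⟨1, fun J pat _ hJ => ?_⟩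
    obtain ⟨l, hl⟩ := Finset.card_pos.1 hJ
    exact ⟨∅, empty_subset _, rfl, l, hl, by simp, by simp⟩
  | succ s ih =>
    obtain ⟨g, hg⟩ := ih
    refine ⟨c * g + 2, fun J pat hp hJ => ?_⟩
    obtain ⟨j, hj⟩ : J.Nonempty := Finset.card_pos.1 (by omega)
    obtain ⟨T, hT, hT'⟩ := hp j hj
    have hc : T.card * g < (J.erase j).card := by
      rw [card_erase_of_mem hj]
      have := Nat.mul_le_mul_right g hT
      omega
    obtain ⟨y, -, hy⟩ := Finset.exists_lt_card_fiber_of_mul_lt_card_of_maps_to (s := J.erase j)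
      (t := T) (f := pat j) (fun i hi => hT' i (mem_of_mem_erase hi)) hc
    have hsub : ((J.erase j).filter fun i => pat j i = y) ⊆ J :=
      (filter_subset _ _).trans (erase_subset _ _)
    obtain ⟨A, hA, hAc, l, hl, hlA, hAl⟩ := hg ((J.erase j).filter fun i => pat j i = y) pat
      (fun a ha => by
        obtain ⟨T', h1, h2⟩ := hp a (hsub ha)
        exact ⟨T', h1, fun i hi => h2 i (hsub hi)⟩) hy.le
    have hjA : j ∉ A := fun hh => (mem_erase.1 (mem_filter.1 (hA hh)).1).1 rfl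
    have hl1 := mem_filter.1 hl
    refine ⟨insert j A, insert_subset hj (hA.trans hsub), by rw [card_insert_of_notMem hjA, hAc],
      l, hsub hl, ?_, ?_⟩
    · rw [mem_insert, not_or]
      exact ⟨(mem_erase.1 hl1.1).1, hlA⟩
    · intro a ha b hb hab
      rcases mem_insert.1 ha with ha' | ha'
      · rcases mem_insert.1 hb with hb' | hb'
        · exact absurd (ha'.trans hb'.symm) hab
        · left
          rw [ha', (mem_filter.1 (hA hb')).2, hl1.2]
      · rcases mem_insert.1 hb with hb' | hb'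
        · right
          rw [hb', (mem_filter.1 (hA ha')).2, hl1.2]
        · exact hAl a ha' b hb' hab

theorem triple (c c' : ℕ) : ∃ M : ℕ, ∀ {ι α β : Type} (J : Finset ι) (pat : ι → ι → α)
    (tr : ι → β), (∀ j ∈ J, ∃ T : Finset α, T.card ≤ c ∧ ∀ i ∈ J, pat j i ∈ T) →
    (∃ T : Finset β, T.card ≤ c' ∧ ∀ i ∈ J, tr i ∈ T) → M ≤ J.card →
    ∃ a ∈ J, ∃ b ∈ J, ∃ l ∈ J, a ≠ b ∧ a ≠ l ∧ b ≠ l ∧ tr a = tr b ∧ pat a b = pat a l ∧
      pat l a = pat l b := by
  classical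
  obtain ⟨g, hg⟩ := comb_P c (c * c' + 1)
  refine ⟨g, fun J pat tr hp ht hJ => ?_⟩
  obtain ⟨A, hA, hAc, l, hl, hlA, hAl⟩ := hg J pat hp hJ
  obtain ⟨T, hT, hT'⟩ := hp l hl
  obtain ⟨U, hU, hU'⟩ := ht
  have hlt : (T ×ˢ U).card < A.card := by
    rw [card_product, hAc]
    exact Nat.lt_succ_of_le (Nat.mul_le_mul hT hU)
  obtain ⟨a, ha, b, hb, hab, he⟩ := Finset.exists_ne_map_eq_of_card_lt_of_maps_to hlt
    (f := fun i => (pat l i, tr i))
    (fun i hi => mem_coe.2 (mem_product.2 ⟨hT' i (hA hi), hU' i (hA hi)⟩))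
  have e1 : pat l a = pat l b := congrArg Prod.fst he
  have e2 : tr a = tr b := congrArg Prod.snd he
  have hal : a ≠ l := fun hh => hlA (hh ▸ ha)
  have hbl : b ≠ l := fun hh => hlA (hh ▸ hb)
  rcases hAl a ha b hb hab with h1 | h1
  · exact ⟨a, hA ha, b, hA hb, l, hl, hab, hal, hbl, e2, h1, e1⟩
  · exact ⟨b, hA hb, a, hA ha, l, hl, hab.symm, hbl, hal, e2.symm, h1, e1.symm⟩

end Vale.Agent.P061
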