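import Mathlib

namespace Vale.Agent.P061

open Finset

open Classical in
/-- the edge copies of `F` with exactly one end in `S` -/
noncomputable def cut {V E : Type} (ends : E → Sym2 V) (F : Finset E) (S : Finset V) : Finset E :=
  F.filter fun e => ∃ x y : V, ends e = s(x, y) ∧ x ∈ S ∧ y ∉ S

/-- `T` is a set of `n - 1` edge copies forming a connected graph on all vertices -/
def IsSpanningTree {V E : Type} [Fintype V] (ends : E → Sym2 V) (T : Finset E) : Prop :=
  T.card + 1 = Fintype.card V ∧ (SimpleGraph.fromEdgeSet (ends '' (T : Set E))).Connected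

/-- the multigraph has a tree decomposition with all bags of size at most `w + 1` -/
def TreewidthLE {V E : Type} (ends : E → Sym2 V) (w : ℕ) : Prop :=
  ∃ (ι : Type) (_ : Finite ι) (T : SimpleGraph ι) (B : ι → Finset V), T.IsTree ∧
    (∀ t, (B t).card ≤ w + 1) ∧ (∀ e, ∃ t, ∀ x ∈ ends e, x ∈ B t) ∧
    ∀ v, (T.induce {t | v ∈ B t}).Connected

end Vale.Agent.P061
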