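import Vale.Agent.P061.Defs

namespace Vale.Agent.P061

open Finset

/-- a `k`-edge-connected multigraph with an elimination forest of width `w` -/
structure Elim (V E : Type) [Fintype V] [DecidableEq V] [Fintype E] [DecidableEq E] (w k : ℕ) where
  rk : V → ℕ
  lo : E → V
  hi : E → V
  D : V → Finset V
  N : V → Finset V
  z : V
  rk_inj : Function.Injective rk
  rk_le : ∀ v, rk v ≤ rk z
  self_mem : ∀ v, v ∈ D v
  D_le : ∀ v, ∀ x ∈ D v, rk x ≤ rk v
  D_sub : ∀ v, ∀ x ∈ D v, D x ⊆ D v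
  lam : ∀ x y u, u ∈ D x → u ∈ D y → x ∈ D y ∨ y ∈ D x
  N_lt : ∀ v, ∀ y ∈ N v, rk v < rk y
  N_card : ∀ v, (N v).card ≤ w
  N_sub : ∀ v, ∀ x ∈ D v, ∀ y ∈ N x, y ∈ D v ∨ y ∈ N v
  N_D : ∀ x, ∀ y ∈ N x, x ∈ D y
  hi_mem : ∀ e, hi e ∈ N (lo e)
  conn : ∀ S : Finset V, S.Nonempty → S ≠ univ →
    k ≤ (univ.filter fun e => ¬ (lo e ∈ S ↔ hi e ∈ S)).card

namespace Elim

variable {V E : Type} [Fintype V] [DecidableEq V] [Fintype E] [DecidableEq E] {w k : ℕ}
  (G : Elim V E w k)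

/-- the edge crosses `S` -/
def cr (S : Finset V) (e : E) : Prop := ¬ (G.lo e ∈ S ↔ G.hi e ∈ S)

instance (S : Finset V) : DecidablePred (G.cr S) := fun e => by unfold cr; infer_instance

/-- the cut -/
def dl (S : Finset V) : Finset E := univ.filter (G.cr S)

/-- interior of a hole -/
def HD : Option V → Finset V
  | none => ∅
  | some r => G.D r

/-- boundary of a hole -/
def HN : Option V → Finset V
  | none => ∅
  | some r => G.N r

/-- the hole lies strictly below `v` -/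
def In (v : V) (ρ : Option V) : Prop := ∀ r, ρ = some r → r ∈ G.D v ∧ r ≠ v

/-- number of crossing edges located below `v` and outside the hole -/
def cost (v : V) (ρ : Option V) (S : Finset V) : ℕ :=
  (univ.filter fun e => G.cr S e ∧ G.lo e ∈ G.D v ∧ G.lo e ∉ G.HD ρ).card

/-- a witness that the edge `e` is a bad choice -/
structure Wit (v : V) (K : Finset V) (μ : ℕ) (e : E) (ρ : Option V) (S : Finset V) (a : V) :
    Prop where
  inn : G.In v ρ
  avoid : Disjoint K (G.HD ρ ∪ G.HN ρ)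
  side : Disjoint K S
  cheap : G.cost v ρ S < μ
  loc : G.lo e ∈ G.D v
  ends : (G.lo e ∈ K ∧ G.hi e = a) ∨ (G.hi e ∈ K ∧ G.lo e = a)
  mem : a ∈ S
  opn : ∀ Z : Finset V, Z ⊆ (G.D v).erase v → a ∈ Z → 3 * μ ≤ G.cost v ρ Z

/-- root of `x` at time `t` -/
def R (p : V → V) : ℕ → V → V
  | 0, x => x
  | t + 1, x => if G.rk (R p t x) = t then p (R p t x) else R p t x

/-- edges between the classes of `v` and `u` at the time of `v` -/
def Bu (p : V → V) (v u : V) : Finset E :=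
  univ.filter fun e => (G.R p (G.rk v) (G.lo e) = v ∧ G.R p (G.rk v) (G.hi e) = u) ∨
    (G.R p (G.rk v) (G.hi e) = v ∧ G.R p (G.rk v) (G.lo e) = u)

def Pm (p : V → V) : Prop := ∀ v, v ≠ G.z → p v ∈ G.N v

def Heavy (p : V → V) : Prop := ∀ v, v ≠ G.z → k ≤ w * (G.Bu p v (p v)).card

/-- the local class of `u` at the time of `v` -/
def cls (p : V → V) (v u : V) : Finset V :=
  univ.filter fun x => G.R p (G.rk v) x = u ∧ (x ∈ G.D v ∨ x = u)

/-- both classes merged at `v` meet the hole -/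
def Spans (p : V → V) (v : V) (ρ : Option V) : Prop :=
  ¬ Disjoint (G.cls p v v) (G.HD ρ ∪ G.HN ρ) ∧ ¬ Disjoint (G.cls p v (p v)) (G.HD ρ ∪ G.HN ρ)

/-- a selection of good edges -/
def Sel (p : V → V) (μ : ℕ) (ev : V → E) : Prop :=
  ∀ v, v ≠ G.z → ev v ∈ G.Bu p v (p v) ∧
    ∀ u, (u = v ∨ u = p v) → ∀ ρ S a, ¬ G.Wit v (G.cls p v u) μ (ev v) ρ S a

end Elim

end Vale.Agent.P061
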