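import Vale.Agent.P061.Basic

namespace Vale.Agent.P061

open Finset

namespace Elim

variable {V E : Type} [Fintype V] [DecidableEq V] [Fintype E] [DecidableEq E] {w k : ℕ}
  (G : Elim V E w k)

theorem few_same {v : V} {ρ : Option V} {μ : ℕ} (hμ : 2 * μ ≤ k) {S S' : Finset V}
    (h1 : G.cost v ρ S < μ) (h2 : G.cost v ρ S' < μ)
    (hB : ∀ x ∈ insert v (G.N v) ∪ G.HN ρ, x ∈ S ↔ x ∈ S') {e : E} (he : G.lo e ∈ G.D v)
    (he' : G.lo e ∉ G.HD ρ) (hc : G.cr S e) : G.cr S' e := by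
  obtain ⟨Z, hZ⟩ : ∃ Z : Finset V, ∀ x, x ∈ Z ↔ x ∈ G.D v ∧ x ∉ G.HD ρ ∧ ¬ (x ∈ S ↔ x ∈ S') :=
    ⟨univ.filter fun x => x ∈ G.D v ∧ x ∉ G.HD ρ ∧ ¬ (x ∈ S ↔ x ∈ S'), fun x => by
      rw [mem_filter, and_iff_right (mem_univ x)]⟩
  have key : ∀ e, G.lo e ∈ G.D v → G.lo e ∉ G.HD ρ →
      (G.lo e ∈ Z ↔ ¬ (G.lo e ∈ S ↔ G.lo e ∈ S')) ∧
        (G.hi e ∈ Z ↔ ¬ (G.hi e ∈ S ↔ G.hi e ∈ S')) := by
    intro e a1 a2
    refine ⟨⟨fun h => ((hZ _).1 h).2.2, fun h => (hZ _).2 ⟨a1, a2, h⟩⟩,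
      fun h => ((hZ _).1 h).2.2, fun h => (hZ _).2 ⟨?_, fun h' => a2 (G.hole_hi h'), h⟩⟩
    exact (G.hi_of_lo a1).resolve_right fun h' =>
      h (hB _ (mem_union_left _ (mem_insert_of_mem h')))
  have hZe : Z = ∅ := by
    refine G.empty_of_small (v := v)
      (fun h => ((hZ _).1 h).2.2 (hB _ (mem_union_left _ (mem_insert_self _ _)))) ?_
    have h3 : (G.dl Z).card ≤ G.cost v ρ S + G.cost v ρ S' := by
      refine le_trans (card_le_card fun e he => ?_) (card_union_le _ _)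
      have a0 := (mem_filter.1 he).2
      have a1 := G.region (v := v) (ρ := ρ) (fun x hx => ((hZ x).1 hx).1)
        (disjoint_left.2 fun x hx hx' => (mem_union.1 hx').elim ((hZ x).1 hx).2.1
          fun h => ((hZ x).1 hx).2.2 (hB x (mem_union_right _ h))) a0
      have a2 := key e a1.1 a1.2
      have a3 : G.cr S e ∨ G.cr S' e := by
        unfold cr at a0 ⊢
        rw [a2.1, a2.2] at a0
        tauto
      rcases a3 with h | h
      · exact mem_union_left _ (mem_filter.2 ⟨mem_univ _, h, a1⟩)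
      · exact mem_union_right _ (mem_filter.2 ⟨mem_univ _, h, a1⟩)
    omega
  have a2 := key e he he'
  rw [hZe] at a2
  have a3 := fun h => notMem_empty _ (a2.1.2 h)
  have a4 := fun h => notMem_empty _ (a2.2.2 h)
  unfold cr at hc ⊢
  tauto

theorem few_in {v r : V} {ρ ρ' : Option V} {μ : ℕ} (hμ : 2 * μ ≤ k) {S S' : Finset V}
    (hr : G.In v (some r)) (d1 : Disjoint (G.D r) (G.HD ρ)) (d2 : Disjoint (G.D r) (G.HD ρ'))
    (h1 : G.cost v ρ S < μ) (h2 : G.cost v ρ' S' < μ) (hp : S ∩ G.N r ⊆ S') {e : E}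
    (he : G.lo e ∈ G.D r) : (G.lo e ∈ S → G.lo e ∈ S') ∧ (G.hi e ∈ S → G.hi e ∈ S') := by
  have hsub : G.D r ⊆ (G.D v).erase v := G.HD_sub hr
  have hZe : (S \ S') ∩ G.D r = ∅ := by
    refine G.empty_of_small (v := v)
      (fun h => notMem_erase v _ (hsub (mem_inter.1 h).2)) ?_
    have h3 : (G.dl ((S \ S') ∩ G.D r)).card ≤ G.cost v ρ S + G.cost v ρ' S' := by
      refine le_trans (card_le_card fun e he => ?_) (card_union_le _ _)
      have a0 := (mem_filter.1 he).2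
      have a1 := G.cr_sub inter_subset_right a0
      have a2 : G.hi e ∈ S → G.hi e ∉ S' → G.hi e ∈ G.D r := fun b1 b2 =>
        (G.hi_of_lo a1).resolve_right fun h => b2 (hp (mem_inter.2 ⟨b1, h⟩))
      have a3 : G.cr S e ∨ G.cr S' e := by
        unfold cr at a0 ⊢
        simp only [mem_inter, mem_sdiff] at a0
        tauto
      rcases a3 with h | h
      · exact mem_union_left _ (mem_filter.2 ⟨mem_univ _, h, mem_of_mem_erase (hsub a1),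
          disjoint_left.1 d1 a1⟩)
      · exact mem_union_right _ (mem_filter.2 ⟨mem_univ _, h, mem_of_mem_erase (hsub a1),
          disjoint_left.1 d2 a1⟩)
    omega
  have key : ∀ x ∈ G.D r, x ∈ S → x ∈ S' := by
    intro x hx h
    by_contra h'
    exact notMem_empty x (hZe ▸ mem_inter.2 ⟨mem_sdiff.2 ⟨h, h'⟩, hx⟩)
  exact ⟨key _ he, fun h => (G.hi_of_lo he).elim (fun h' => key _ h' h)
    fun h' => hp (mem_inter.2 ⟨h, h'⟩)⟩

theorem few {v : V} {ρ : Option V} {μ : ℕ} (hρ : G.In v ρ) (hμ : 2 * μ ≤ k) (T : Finset E)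
    (hT : ∀ e ∈ T, G.lo e ∈ G.D v ∧ G.lo e ∉ G.HD ρ ∧ ∃ S, G.cost v ρ S < μ ∧ G.cr S e) :
    T.card ≤ 2 ^ (2 * w + 1) * μ := by
  have _ := hρ
  choose! S hS using fun e he => (hT e he).2.2
  have hB : (insert v (G.N v) ∪ G.HN ρ).card ≤ 2 * w + 1 := by
    have a1 := card_union_le (insert v (G.N v)) (G.HN ρ)
    have a2 := card_insert_le v (G.N v)
    have a3 := G.N_card v
    have a4 := G.HN_card ρ
    omega
  have h1 := card_le_mul_card_image_of_maps_to (s := T)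
    (t := (insert v (G.N v) ∪ G.HN ρ).powerset)
    (f := fun e => S e ∩ (insert v (G.N v) ∪ G.HN ρ))
    (fun e _ => mem_powerset.2 inter_subset_right) μ fun b _ => by
      rcases (T.filter fun e => S e ∩ (insert v (G.N v) ∪ G.HN ρ) = b).eq_empty_or_nonempty with
        h | ⟨e₀, h⟩
      · rw [h]; exact Nat.zero_le _
      · obtain ⟨a1, a2⟩ := mem_filter.1 h
        refine le_trans (card_le_card fun e he => ?_) (hS e₀ a1).1.le
        obtain ⟨b1, b2⟩ := mem_filter.1 he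
        refine mem_filter.2 ⟨mem_univ _, G.few_same hμ (hS e b1).1 (hS e₀ a1).1 (fun x hx => ?_)
          (hT e b1).1 (hT e b1).2.1 (hS e b1).2, (hT e b1).1, (hT e b1).2.1⟩
        have := congrArg (x ∈ ·) (b2.trans a2.symm)
        simpa only [mem_inter, hx, and_true, eq_iff_iff] using this
  rw [card_powerset, mul_comm] at h1
  exact h1.trans (Nat.mul_le_mul_right _ (Nat.pow_le_pow_right (by norm_num) hB))

theorem few_prop {p₁ p₂ p₃ q₁ q₂ q₃ x y : Prop} (b1 : p₂ → ¬ p₁ → x) (b2 : q₂ → ¬ q₁ → y)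
    (a0 : ¬ ((p₂ ∧ ¬ (p₁ ∨ p₃)) ∧ x ↔ (q₂ ∧ ¬ (q₁ ∨ q₃)) ∧ y)) :
    ¬ ((p₂ → p₃) ∧ (q₂ → q₃)) ∧ ¬ ((p₂ → p₁) ∧ (q₂ → q₁)) ∧
      (¬ (p₁ ↔ q₁) ∨ ¬ (p₂ ↔ q₂) ∨ ¬ (p₃ ↔ q₃)) := by
  by_cases p₁ <;> by_cases p₂ <;> by_cases p₃ <;> by_cases q₁ <;> by_cases q₂ <;>
    by_cases q₃ <;> simp_all

theorem no_triple {v : V} {K : Finset V} {μ : ℕ} {e₁ e₂ e₃ : E} {r₁ r₂ r₃ a₁ a₂ a₃ : V}
    {S₁ S₂ S₃ : Finset V} (hμ : 2 * μ ≤ k) (h₁ : G.Wit v K μ e₁ (some r₁) S₁ a₁)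
    (h₂ : G.Wit v K μ e₂ (some r₂) S₂ a₂) (h₃ : G.Wit v K μ e₃ (some r₃) S₃ a₃)
    (d12 : Disjoint (G.D r₁) (G.D r₂)) (d13 : Disjoint (G.D r₁) (G.D r₃))
    (d23 : Disjoint (G.D r₂) (G.D r₃)) (n1 : a₂ ∉ S₁) (n3 : a₂ ∉ S₃)
    (t : S₂ ∩ insert v (G.N v) ⊆ S₁) (p1 : S₂ ∩ G.N r₁ ⊆ S₃) (p3 : S₂ ∩ G.N r₃ ⊆ S₁) : False := by
  have hin : ∀ x, x ∈ G.D v ∨ x ∈ G.N v → x ∈ S₂ → x ∉ S₁ → x ∈ (G.D v).erase v := by
    intro x hx a1 a2
    refine mem_erase.2 ⟨fun h => a2 (t (mem_inter.2 ⟨a1, h ▸ mem_insert_self _ _⟩)), ?_⟩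
    exact hx.resolve_right fun h => a2 (t (mem_inter.2 ⟨a1, mem_insert_of_mem h⟩))
  have ha : a₂ ∈ G.D v ∨ a₂ ∈ G.N v := by
    rcases h₂.ends with h | h
    · exact h.2 ▸ G.hi_of_lo h₂.loc
    · exact Or.inl (h.2 ▸ h₂.loc)
  have h1 := h₂.opn ((S₂ \ (S₁ ∪ S₃)) ∩ (G.D v).erase v) inter_subset_right
    (mem_inter.2 ⟨mem_sdiff.2 ⟨h₂.mem, fun h => (mem_union.1 h).elim n1 n3⟩,
      hin _ ha h₂.mem n1⟩)
  have h2 : G.cost v (some r₂) ((S₂ \ (S₁ ∪ S₃)) ∩ (G.D v).erase v) ≤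
      G.cost v (some r₁) S₁ + G.cost v (some r₂) S₂ + G.cost v (some r₃) S₃ := by
    refine le_trans (card_le_card fun e he => ?_)
      ((card_union_le _ _).trans (Nat.add_le_add_right (card_union_le _ _) _))
    obtain ⟨-, a0, a1, a2⟩ := mem_filter.1 he
    have b1 := hin _ (Or.inl a1)
    have b2 := hin _ (G.hi_of_lo a1)
    unfold cr at a0
    simp only [mem_inter, mem_sdiff, mem_union] at a0
    obtain ⟨c1, c3, a3⟩ := few_prop b1 b2 a0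
    replace c1 : G.lo e ∉ G.D r₁ := fun h => c1
      (G.few_in (ρ := some r₂) (ρ' := some r₃) hμ h₁.inn d12 d13 h₂.cheap h₃.cheap p1 h)
    replace c3 : G.lo e ∉ G.D r₃ := fun h => c3 (G.few_in (ρ := some r₂) (ρ' := some r₁) hμ
      h₃.inn d23.symm d13.symm h₂.cheap h₁.cheap p3 h)
    rcases a3 with h | h | h
    · exact mem_union_left _ (mem_union_left _ (mem_filter.2 ⟨mem_univ _, h, a1, c1⟩))
    · exact mem_union_left _ (mem_union_right _ (mem_filter.2 ⟨mem_univ _, h, a1, a2⟩))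
    · exact mem_union_right _ (mem_filter.2 ⟨mem_univ _, h, a1, c3⟩)
  have := h₁.cheap
  have := h₂.cheap
  have := h₃.cheap
  omega

end Elim

end Vale.Agent.P061
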