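import Vale.Agent.P061.Few
import Vale.Agent.P061.Comb

namespace Vale.Agent.P061

open Finset

theorem few_bad (w : ℕ) : ∃ c : ℕ, ∀ {V E : Type} [Fintype V] [DecidableEq V] [Fintype E]
    [DecidableEq E] {k : ℕ} (G : Elim V E w k) (v : V) (K : Finset V) (μ : ℕ), 1 ≤ μ → 2 * μ ≤ k →
    ∀ T : Finset E, (∀ e ∈ T, ∃ ρ S a, G.Wit v K μ e ρ S a) → T.card ≤ c * μ := by
  obtain ⟨M, hM⟩ := triple (2 ^ w) (2 ^ (w + 1))
  refine ⟨2 ^ (2 * w + 1) + M * (2 * (2 ^ (2 * w + 1) + 1) + 1), ?_⟩
  intro V E _ _ _ _ k G v K μ hμ1 hμ T hT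
  classical
  have h0 : (T.filter fun e => ∃ S a, G.Wit v K μ e none S a).card ≤ 2 ^ (2 * w + 1) * μ := by
    refine G.few (v := v) (ρ := none) (fun r hr => by cases hr) hμ _ fun e he => ?_
    obtain ⟨-, S, a, h⟩ := mem_filter.1 he
    exact ⟨h.loc, notMem_empty _, S, h.cheap, h.cr G h.side h.mem⟩
  obtain ⟨T₁, hT₁⟩ : ∃ T₁, T₁ = T.filter fun e => ¬ ∃ S a, G.Wit v K μ e none S a := ⟨_, rfl⟩
  have h1 : ∀ e, ∃ r S a, e ∈ T₁ → G.Wit v K μ e (some r) S a := by
    intro e
    by_cases he : e ∈ T₁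
    · rw [hT₁] at he
      obtain ⟨ρ, S, a, h⟩ := hT e (mem_filter.1 he).1
      cases ρ with
      | none => exact absurd ⟨S, a, h⟩ (mem_filter.1 he).2
      | some r => exact ⟨r, S, a, fun _ => h⟩
    · exact ⟨v, ∅, v, fun h => absurd h he⟩
  choose r S a hW using h1
  have h2 : ∀ e, ∃ t, e ∈ T₁ → (t ∈ (G.D v).erase v ∧ r e ∈ G.D t ∧
      Disjoint K (G.D t ∪ G.N t)) ∧ ∀ s ∈ (G.D v).erase v, r e ∈ G.D s →
        Disjoint K (G.D s ∪ G.N s) → G.rk s ≤ G.rk t := by
    intro e
    by_cases he : e ∈ T₁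
    · obtain ⟨t, ht, hmax⟩ := exists_max_image (((G.D v).erase v).filter fun s =>
        r e ∈ G.D s ∧ Disjoint K (G.D s ∪ G.N s)) G.rk
        ⟨r e, mem_filter.2 ⟨mem_erase.2 ((hW e he).inn _ rfl).symm, G.self_mem _,
          (hW e he).avoid⟩⟩
      exact ⟨t, fun _ => ⟨mem_filter.1 ht, fun s h1 h2 h3 => hmax s (mem_filter.2 ⟨h1, h2, h3⟩)⟩⟩
    · exact ⟨v, fun h => absurd h he⟩
  choose top htop using h2
  have h3 : ∀ i ∈ T₁, ∀ j ∈ T₁, top i ∈ G.D (top j) → top i = top j := by
    intro i hi j hj h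
    exact G.rk_inj (le_antisymm (G.D_le _ _ h) ((htop i hi).2 _ (htop j hj).1.1
      (G.D_sub _ _ h (htop i hi).1.2.1) (htop j hj).1.2.2))
  have h4 : ∀ i ∈ T₁, ∀ j ∈ T₁, top i ≠ top j → Disjoint (G.D (r i)) (G.D (r j)) := by
    intro i hi j hj hne
    refine disjoint_left.2 fun u hu hu' => hne ?_
    rcases G.lam _ _ u (G.D_sub _ _ (htop i hi).1.2.1 hu) (G.D_sub _ _ (htop j hj).1.2.1 hu') with
      h | h
    · exact h3 i hi j hj h
    · exact (h3 j hj i hi h).symm
  have h5 : T₁.card ≤ M * (2 * (2 ^ (2 * w + 1) + 1) + 1) * μ := by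
    by_contra hc
    obtain ⟨J, hJ, hJc, hind⟩ := indep (fun i j => top i = top j ∨ a j ∈ S i)
      ((2 ^ (2 * w + 1) + 1) * μ) M T₁ (fun i hi T' hT' hrel => by
        have b1 : (T'.filter fun j => top i = top j).card ≤ 2 ^ (2 * w + 1) * μ := by
          refine G.few (v := v) (ρ := some (top i)) (fun t ht => ?_) hμ _ fun j hj => ?_
          · obtain rfl := Option.some.inj ht
            exact (mem_erase.1 (htop i hi).1.1).symm
          · have hj' := hT' (mem_filter.1 hj).1
            have hr : r j ∈ G.D (top i) := (mem_filter.1 hj).2 ▸ (htop j hj').1.2.1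
            exact ⟨(hW j hj').loc, (hW j hj').out G (ρ' := some (top i)) (htop i hi).1.2.2, S j,
              (G.cost_anti hr _).trans_lt (hW j hj').cheap,
              (hW j hj').cr G (hW j hj').side (hW j hj').mem⟩
        have b2 : (T'.filter fun j => ¬ top i = top j).card ≤ G.cost v (some (r i)) (S i) := by
          refine card_le_card fun j hj => ?_
          have hj' := hT' (mem_filter.1 hj).1
          exact mem_filter.2 ⟨mem_univ _, (hW j hj').cr G (hW i hi).side
            ((hrel j (mem_filter.1 hj).1).2.resolve_left (mem_filter.1 hj).2), (hW j hj').loc,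
            (hW j hj').out G (hW i hi).avoid⟩
        have b3 := card_filter_add_card_filter_not (s := T') fun j => top i = top j
        have b4 := (hW i hi).cheap
        rw [add_mul, one_mul]
        omega)
      (le_trans (by
        rw [mul_assoc M]
        refine Nat.mul_le_mul_left _ ?_
        rw [add_mul (2 * _), mul_assoc, one_mul]
        omega) (not_le.1 hc).le)
    obtain ⟨x, hx, y, hy, l, hl, hxy, hxl, hyl, t1, t2, t3⟩ := hM J
      (fun j i => S i ∩ G.N (r j)) (fun i => S i ∩ insert v (G.N v))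
      (fun j _ => ⟨(G.N (r j)).powerset, by
        rw [card_powerset]
        exact Nat.pow_le_pow_right (by norm_num) (G.N_card _),
        fun i _ => mem_powerset.2 inter_subset_right⟩)
      ⟨(insert v (G.N v)).powerset, by
        rw [card_powerset]
        exact Nat.pow_le_pow_right (by norm_num)
          ((card_insert_le _ _).trans (Nat.succ_le_succ (G.N_card _))),
        fun i _ => mem_powerset.2 inter_subset_right⟩ hJc.ge
    have c1 := not_or.1 (hind x hx y hy hxy)
    have c2 := not_or.1 (hind x hx l hl hxl)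
    have c3 := not_or.1 (hind y hy l hl hyl)
    have c4 := not_or.1 (hind l hl y hy hyl.symm)
    exact G.no_triple hμ (hW x (hJ hx)) (hW y (hJ hy)) (hW l (hJ hl))
      (h4 _ (hJ hx) _ (hJ hy) c1.1) (h4 _ (hJ hx) _ (hJ hl) c2.1) (h4 _ (hJ hy) _ (hJ hl) c3.1)
      c1.2 c4.2 (t1.ge.trans inter_subset_left) (t2.le.trans inter_subset_left)
      (t3.ge.trans inter_subset_left)
  have h6 := card_filter_add_card_filter_not (s := T) fun e => ∃ S a, G.Wit v K μ e none S a
  rw [← hT₁] at h6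
  rw [add_mul]
  omega

end Vale.Agent.P061
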