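import Mathlib

namespace Vale.Agent.P061

open Finset

theorem lam_aux {ι Ω : Type} [DecidableEq Ω] (C₀ : Finset ι) (A : ι → Finset Ω)
    (le : ι → ι → Prop) (rk : ι → ℕ) (μ : ℕ) (hμ : 0 < μ)
    (hrk : ∀ i j, le i j → i ≠ j → rk i < rk j) (hA : ∀ i ∈ C₀, μ ≤ (A i).card)
    (mono : ∀ i ∈ C₀, ∀ j ∈ C₀, le i j → A i ⊆ A j)
    (disj : ∀ i ∈ C₀, ∀ j ∈ C₀, i ≠ j → ¬ le i j → ¬ le j i → Disjoint (A i) (A j))
    (lev : ∀ i ∈ C₀, ∀ j ∈ C₀, le i j → i ≠ j → (A i).card / μ < (A j).card / μ) (C : Finset ι) :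
    C ⊆ C₀ → C.Nonempty → ∀ U : Finset Ω, (∀ i ∈ C, A i ⊆ U) →
      C.card + 1 ≤ 2 * (U.card / μ) ∧
        ((¬ ∃ c ∈ C, ∀ i ∈ C, i = c ∨ le i c) → C.card + 2 ≤ 2 * (U.card / μ)) := by
  classical
  induction C using Finset.strongInduction with
  | H C ih =>
  intro hC hne U hU
  obtain ⟨b, hb, hmax⟩ := C.exists_max_image rk hne
  have hbU : (A b).card / μ ≤ U.card / μ := Nat.div_le_div_right (card_le_card (hU b hb))
  by_cases htop : ∀ i ∈ C, i = b ∨ le i b
  · refine ⟨?_, fun h => absurd ⟨b, hb, htop⟩ h⟩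
    have hc := card_erase_add_one hb
    rcases (C.erase b).eq_empty_or_nonempty with he | he
    · rw [he, card_empty] at hc
      have := (Nat.one_le_div_iff hμ).mpr (hA b (hC hb))
      omega
    · have hsub := (erase_subset b C).trans hC
      by_cases h2 : ∃ c ∈ C.erase b, ∀ i ∈ C.erase b, i = c ∨ le i c
      · obtain ⟨c, hc1, hc2⟩ := h2
        have h3 := (ih _ (erase_ssubset hb) hsub he (A c) fun i hi => by
          rcases hc2 i hi with rfl | h
          · exact subset_rfl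
          · exact mono i (hsub hi) c (hsub hc1) h).1
        have hcb := (mem_erase.mp hc1).1
        have h4 := lev c (hsub hc1) b (hC hb) ((htop c (mem_erase.mp hc1).2).resolve_left hcb) hcb
        omega
      · have h3 := (ih _ (erase_ssubset hb) hsub he U fun i hi => hU i (mem_erase.mp hi).2).2 h2
        omega
  · push Not at htop
    obtain ⟨j, hj, hj1, hj2⟩ := htop
    have hc := card_filter_add_card_filter_not (s := C) fun i => i = b ∨ le i b
    have h1 := (ih (C.filter fun i => i = b ∨ le i b)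
      (filter_ssubset.mpr ⟨j, hj, not_or.mpr ⟨hj1, hj2⟩⟩) ((filter_subset _ _).trans hC)
      ⟨b, mem_filter.mpr ⟨hb, Or.inl rfl⟩⟩ (A b) fun i hi => by
        rcases (mem_filter.mp hi).2 with rfl | h
        · exact subset_rfl
        · exact mono i (hC (mem_filter.mp hi).1) b (hC hb) h).1
    have h2 := (ih (C.filter fun i => ¬ (i = b ∨ le i b))
      (filter_ssubset.mpr ⟨b, hb, not_not.mpr (Or.inl rfl)⟩) ((filter_subset _ _).trans hC)
      ⟨j, mem_filter.mpr ⟨hj, not_or.mpr ⟨hj1, hj2⟩⟩⟩ (U \ A b) fun i hi => by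
        obtain ⟨hi1, hi2⟩ := mem_filter.mp hi
        rw [not_or] at hi2
        refine subset_sdiff.mpr ⟨hU i hi1, disj i (hC hi1) b (hC hb) hi2.1 hi2.2 fun h => ?_⟩
        exact absurd (hrk b i h (Ne.symm hi2.1)) (not_lt.mpr (hmax i hi1))).1
    have h3 : (U \ A b).card / μ + (A b).card / μ ≤ U.card / μ := by
      rw [← card_sdiff_add_card_eq_card (hU b hb)]
      exact Nat.div_add_div_le_add_div
    exact ⟨by omega, fun _ => by omega⟩

/-- a laminar family with strictly increasing levels is small -/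
theorem lam_base {ι Ω : Type} [DecidableEq Ω] (C : Finset ι) (A : ι → Finset Ω) (U : Finset Ω)
    (le : ι → ι → Prop) (rk : ι → ℕ) (μ : ℕ) (hμ : 0 < μ)
    (htr : ∀ i j l, le i j → le j l → le i l) (hrk : ∀ i j, le i j → i ≠ j → rk i < rk j)
    (hU : ∀ i ∈ C, A i ⊆ U) (hA : ∀ i ∈ C, μ ≤ (A i).card)
    (mono : ∀ i ∈ C, ∀ j ∈ C, le i j → A i ⊆ A j)
    (disj : ∀ i ∈ C, ∀ j ∈ C, i ≠ j → ¬ le i j → ¬ le j i → Disjoint (A i) (A j))
    (lev : ∀ i ∈ C, ∀ j ∈ C, le i j → i ≠ j → (A i).card / μ < (A j).card / μ) :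
    C.card ≤ 2 * (U.card / μ) := by
  have _ := htr
  rcases C.eq_empty_or_nonempty with rfl | hne
  · simp
  · have := (lam_aux C A le rk μ hμ hrk hA mono disj lev C subset_rfl hne U hU).1
    omega

theorem lam_count {ι Ω : Type} [DecidableEq Ω] (C : Finset ι) (A : ι → Finset Ω) (U : Finset Ω)
    (le : ι → ι → Prop) (rk : ι → ℕ) (μ M : ℕ) (hμ : 0 < μ)
    (htr : ∀ i j l, le i j → le j l → le i l) (hrk : ∀ i j, le i j → i ≠ j → rk i < rk j)
    (hU : ∀ i ∈ C, A i ⊆ U) (hA : ∀ i ∈ C, μ ≤ (A i).card)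
    (mono : ∀ i ∈ C, ∀ j ∈ C, le i j → A i ⊆ A j)
    (disj : ∀ i ∈ C, ∀ j ∈ C, i ≠ j → ¬ le i j → ¬ le j i → Disjoint (A i) (A j))
    (hM : ∀ r ∈ C, ∀ T : Finset ι, T ⊆ C →
      (∀ v ∈ T, le r v ∧ r ≠ v ∧ (A v \ A r).card < μ) → T.card ≤ M) :
    μ * C.card ≤ 2 * (M + 1) * U.card := by
  classical
  obtain ⟨B, hB⟩ : ∃ B : Finset ι, B = C.filter fun b =>
      ∀ j ∈ C, le j b → j ≠ b → (A j).card / μ < (A b).card / μ := ⟨_, rfl⟩
  have hBC : B ⊆ C := by rw [hB]; exact filter_subset _ _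
  have h1 : B.card ≤ 2 * (U.card / μ) :=
    lam_base B A U le rk μ hμ htr hrk (fun i hi => hU i (hBC hi)) (fun i hi => hA i (hBC hi))
      (fun i hi j hj => mono i (hBC hi) j (hBC hj)) (fun i hi j hj => disj i (hBC hi) j (hBC hj))
      fun i hi j hj => by
        rw [hB] at hj
        exact (mem_filter.mp hj).2 i (hBC hi)
  have h2 : C ⊆ B.biUnion fun r =>
      insert r (C.filter fun v => le r v ∧ r ≠ v ∧ (A v \ A r).card < μ) := by
    intro v hv
    obtain ⟨r, hr, hmin⟩ := (C.filter fun r =>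
      (r = v ∨ le r v) ∧ (A r).card / μ = (A v).card / μ).exists_min_image rk
      ⟨v, mem_filter.mpr ⟨hv, Or.inl rfl, rfl⟩⟩
    obtain ⟨hrC, hrv, hrl⟩ := mem_filter.mp hr
    refine mem_biUnion.mpr ⟨r, ?_, ?_⟩
    · rw [hB]
      refine mem_filter.mpr ⟨hrC, fun j hj hjr hne => ?_⟩
      refine lt_of_le_of_ne (Nat.div_le_div_right (card_le_card (mono j hj r hrC hjr))) fun e => ?_
      have h3 := hmin j (mem_filter.mpr ⟨hj, Or.inr (by
        rcases hrv with rfl | h
        · exact hjr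
        · exact htr j r v hjr h), e.trans hrl⟩)
      exact absurd (hrk j r hjr hne) (not_lt.mpr h3)
    · by_cases e : r = v
      · rw [e]; exact mem_insert_self _ _
      · have h4 := hrv.resolve_left e
        refine mem_insert_of_mem (mem_filter.mpr ⟨hv, h4, e, ?_⟩)
        have h5 := card_sdiff_add_card_eq_card (mono r hrC v hv h4)
        have h6 := Nat.div_add_mod (A v).card μ
        have h7 := Nat.mod_lt (A v).card hμ
        have h8 := Nat.mul_div_le (A r).card μ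
        rw [hrl] at h8
        omega
  have h3 : C.card ≤ B.card * (M + 1) := by
    refine (card_le_card h2).trans (card_biUnion_le_card_mul _ _ _ fun r hr => ?_)
    exact (card_insert_le _ _).trans (Nat.succ_le_succ
      (hM r (hBC hr) _ (filter_subset _ _) fun v hv => (mem_filter.mp hv).2))
  calc μ * C.card ≤ μ * (2 * (U.card / μ) * (M + 1)) :=
        Nat.mul_le_mul_left _ (h3.trans (Nat.mul_le_mul_right _ h1))
    _ = 2 * (M + 1) * (μ * (U.card / μ)) := by ring
    _ ≤ _ := Nat.mul_le_mul_left _ (Nat.mul_div_le _ _)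

end Vale.Agent.P061
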