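import Vale.Agent.P061.Closed
import Vale.Agent.P061.Chain
import Vale.Agent.P061.Comb
import Vale.Agent.P061.Lam

namespace Vale.Agent.P061

open Finset

namespace Elim

variable {V E : Type} [Fintype V] [DecidableEq V] [Fintype E] [DecidableEq E] {w k : ℕ}
  (G : Elim V E w k)

variable {p : V → V} {μ : ℕ} {ev : V → E}

theorem local_le (hp : G.Pm p) (hh : G.Heavy p) (hs : G.Sel p μ ev) (hw : 1 ≤ w)
    (hk : 3 * (w + 1) * μ ≤ k) (S : Finset V) (r : V) (T : Finset V)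
    (hT : ∀ v ∈ T, v ≠ G.z ∧ r ∈ G.D v ∧ r ≠ v ∧ G.cr S (ev v) ∧ G.cost v (some r) S < μ) :
    T.card ≤ w + (w + 1) * (2 * w + 1) := by
  classical
  have h1 : (T.filter fun v => G.Spans p v (some r)).card ≤ w :=
    G.span_le hp r _ fun v hv => by
      obtain ⟨c1, c2⟩ := Finset.mem_filter.1 hv
      exact ⟨(hT v c1).1, (hT v c1).2.1, (hT v c1).2.2.1, c2⟩
  have h2 : (T.filter fun v => ¬ G.Spans p v (some r)).card < (w + 1) * (2 * w + 1) := by
    by_contra hge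
    push Not at hge
    obtain ⟨J, hJ1, hJ2, hJ3⟩ := indep (fun i j => i ∈ G.D j ∧ G.Spans p j (some i)) w (w + 1) _
      (fun i _ T' hT' h => G.span_le hp i T' fun j hj =>
        ⟨(hT j (Finset.mem_filter.1 (hT' hj)).1).1, (h j hj).2.1, (h j hj).1.symm, (h j hj).2.2⟩) hge
    have hex : ∀ v ∈ J, ∃ (a : V) (Z : Finset V), (a = G.lo (ev v) ∨ a = G.hi (ev v)) ∧
        a ∉ G.HD (some r) ∧ Z ⊆ (G.D v).erase v ∧ a ∈ Z ∧ G.cost v (some r) Z < 3 * μ := by
      intro v hv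
      obtain ⟨c1, c2⟩ := Finset.mem_filter.1 (hJ1 hv)
      obtain ⟨d1, d2, d3, d4, d5⟩ := hT v c1
      exact G.closed hp hh hs hw (by nlinarith) d1
        (fun r' hr => by cases hr; exact ⟨d2, d3⟩) c2 d4 d5
    choose! a Z e1 e2 e3 e4 e5 using hex
    have := G.chain_le hk r J a Z hJ2.le (fun v hv => by
      obtain ⟨-, d2, d3, -⟩ := hT v (Finset.mem_filter.1 (hJ1 hv)).1
      exact ⟨d2, d3, e2 v hv, e3 v hv, e4 v hv, e5 v hv⟩) (fun i hi j hj hij ha => by
      obtain ⟨d1, d2, -⟩ := hT j (Finset.mem_filter.1 (hJ1 hj)).1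
      obtain ⟨-, d3, -⟩ := hT i (Finset.mem_filter.1 (hJ1 hi)).1
      refine hJ3 i hi j hj (by rintro rfl; omega) ⟨?_, G.spans_of_mem hp hs d1 (e1 j hj) ha⟩
      rcases G.lam i j r d3 d2 with h | h
      · exact h
      · exact absurd (G.D_le i j h) (by omega))
    omega
  have := Finset.card_filter_add_card_filter_not (s := T) fun v => G.Spans p v (some r)
  omega

theorem thin (hp : G.Pm p) (hh : G.Heavy p) (hs : G.Sel p μ ev) (hw : 1 ≤ w) (hμ : 1 ≤ μ)
    (hk : 3 * (w + 1) * μ ≤ k) (S : Finset V) :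
    μ * (univ.filter fun v => v ≠ G.z ∧ G.cr S (ev v)).card ≤
      2 * (w + (w + 1) * (2 * w + 1) + 1) * (G.dl S).card := by
  refine lam_count _ (fun v => (G.dl S).filter fun e => G.lo e ∈ G.D v) (G.dl S)
    (fun i j => i ∈ G.D j) G.rk μ _ hμ (fun i j l h1 h2 => G.D_sub l j h2 h1)
    (fun i j h1 h2 => G.rk_lt_of_D h1 h2) (fun i _ => Finset.filter_subset _ _) ?_ ?_ ?_ ?_
  · intro i hi
    obtain ⟨c1, c2⟩ := (Finset.mem_filter.1 hi).2
    refine (G.cost_ge hp hh hs hw hk c1 c2).trans (Finset.card_le_card fun e he => ?_)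
    obtain ⟨d1, d2, -⟩ := (Finset.mem_filter.1 he).2
    exact Finset.mem_filter.2 ⟨Finset.mem_filter.2 ⟨mem_univ _, d1⟩, d2⟩
  · intro i _ j _ hij e he
    exact Finset.mem_filter.2 ⟨(Finset.mem_filter.1 he).1,
      G.D_sub j i hij (Finset.mem_filter.1 he).2⟩
  · intro i _ j _ _ h1 h2
    refine Finset.disjoint_left.2 fun e he he' => ?_
    rcases G.lam i j _ (Finset.mem_filter.1 he).2 (Finset.mem_filter.1 he').2 with h | h
    · exact h1 h
    · exact h2 h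
  · intro r _ T hT h
    refine G.local_le hp hh hs hw hk S r T fun v hv => ?_
    obtain ⟨c1, c2⟩ := (Finset.mem_filter.1 (hT hv)).2
    obtain ⟨d1, d2, d3⟩ := h v hv
    refine ⟨c1, d1, d2, c2, lt_of_le_of_lt (Finset.card_le_card fun e he => ?_) d3⟩
    obtain ⟨f1, f2, f3⟩ := (Finset.mem_filter.1 he).2
    exact Finset.mem_sdiff.2 ⟨Finset.mem_filter.2 ⟨Finset.mem_filter.2 ⟨mem_univ _, f1⟩, f2⟩,
      fun h' => f3 (Finset.mem_filter.1 h').2⟩

end Elim

end Vale.Agent.P061
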