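import Vale.Agent.P061.RBasic

namespace Vale.Agent.P061

open Finset

namespace Elim

variable {V E : Type} [Fintype V] [DecidableEq V] [Fintype E] [DecidableEq E] {w k : ℕ}
  (G : Elim V E w k)

theorem tree_merge {p : V → V} (hp : G.Pm p) {v : V} (hv : v ≠ G.z) {e : E}
    (h : e ∈ G.Bu p v (p v)) :
    G.R p (G.rk v + 1) (G.lo e) = G.R p (G.rk v + 1) (G.hi e) := by
  have h0 := G.N_lt _ _ (hp v hv)
  rcases (Finset.mem_filter.1 h).2 with ⟨h1, h2⟩ | ⟨h1, h2⟩
  · simp only [R, h1, h2]
    rw [if_pos trivial, if_neg h0.ne']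
  · simp only [R, h1, h2]
    rw [if_pos trivial, if_neg h0.ne']

theorem tree_ne {p : V → V} (hp : G.Pm p) {v v' : V} (hv : v ≠ G.z) (hv' : v' ≠ G.z) {e : E}
    (h : e ∈ G.Bu p v (p v)) (h' : e ∈ G.Bu p v' (p v')) : ¬ G.rk v < G.rk v' := by
  intro hlt
  have h0 := G.N_lt _ _ (hp v' hv')
  have h3 := G.R_stable p (G.tree_merge hp hv h) (show G.rk v + 1 ≤ G.rk v' from hlt)
  rcases (Finset.mem_filter.1 h').2 with ⟨h1, h2⟩ | ⟨h1, h2⟩
  · rw [h1, h2] at h3
    exact h0.ne (congrArg G.rk h3)
  · rw [h1, h2] at h3
    exact h0.ne' (congrArg G.rk h3)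

theorem tree {p : V → V} (hp : G.Pm p) (ev : V → E) (h : ∀ v, v ≠ G.z → ev v ∈ G.Bu p v (p v))
    (ends : E → Sym2 V) (he : ∀ e, ends e = s(G.lo e, G.hi e)) :
    IsSpanningTree ends ((univ.erase G.z).image ev) := by
  constructor
  · rw [card_image_of_injOn, card_erase_add_one (mem_univ _), card_univ]
    intro v hv v' hv' e
    have a := (mem_erase.1 (mem_coe.1 hv)).1
    have b := (mem_erase.1 (mem_coe.1 hv')).1
    have c := G.tree_ne hp a b (h v a) (e ▸ h v' b)
    have d := G.tree_ne hp b a (h v' b) (e ▸ h v a)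
    exact G.rk_inj (by omega)
  · have key : ∀ t, t ≤ G.rk G.z → ∀ x, (SimpleGraph.fromEdgeSet
        (ends '' (((univ.erase G.z).image ev : Finset E) : Set E))).Reachable x (G.R p t x) := by
      intro t
      induction t with
      | zero => exact fun _ x => SimpleGraph.Reachable.refl x
      | succ t ih =>
        intro ht x
        have ih' := ih (by omega)
        simp only [R]
        split_ifs with h1
        · refine (ih' x).trans ?_
          generalize G.R p t x = y at h1
          have hy : y ≠ G.z := by rintro rfl; omega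
          have hadj : (SimpleGraph.fromEdgeSet
              (ends '' (((univ.erase G.z).image ev : Finset E) : Set E))).Adj
              (G.lo (ev y)) (G.hi (ev y)) := by
            rw [SimpleGraph.fromEdgeSet_adj]
            exact ⟨⟨ev y, mem_coe.2 (mem_image_of_mem _ (mem_erase.2 ⟨hy, mem_univ _⟩)), he _⟩,
              fun e => (G.lo_lt (ev y)).ne (congrArg G.rk e)⟩
          have a := ih' (G.lo (ev y))
          have b := ih' (G.hi (ev y))
          rcases (Finset.mem_filter.1 (h y hy)).2 with ⟨h2, h3⟩ | ⟨h2, h3⟩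
          · rw [h1] at h2 h3
            rw [h2] at a
            rw [h3] at b
            exact a.symm.trans (hadj.reachable.trans b)
          · rw [h1] at h2 h3
            rw [h2] at b
            rw [h3] at a
            exact b.symm.trans (hadj.symm.reachable.trans a)
        · exact ih' x
    rw [SimpleGraph.connected_iff_exists_forall_reachable]
    refine ⟨G.z, fun x => ?_⟩
    have a := key _ le_rfl x
    rw [G.rk_inj (le_antisymm (G.rk_le _) (G.R_ge' (hp.below le_rfl) x))] at a
    exact a.symm

end Elim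

end Vale.Agent.P061
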