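import Vale.Agent.P061.Peo
import Vale.Agent.P061.Build
import Vale.Agent.P061.FewBad
import Vale.Agent.P061.Thin
import Vale.Agent.P061.Tree

namespace Vale.Agent.P061

open Finset

theorem main (w : ℕ) : ∃ C : ℝ, ∀ (V E : Type) [Fintype V] [Fintype E] (ends : E → Sym2 V)
    (k : ℕ), (∀ e, ¬ (ends e).IsDiag) → 2 ≤ Fintype.card V → 1 ≤ k → TreewidthLE ends w →
    (∀ S : Finset V, S.Nonempty → S ≠ univ → k ≤ (cut ends univ S).card) →
    ∃ T : Finset E, IsSpanningTree ends T ∧ ∀ S : Finset V, S.Nonempty → S ≠ univ →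
      ((cut ends T S).card : ℝ) ≤ C / k * (cut ends univ S).card := by
  classical
  obtain ⟨c, hc⟩ := few_bad w
  set L : ℕ := 3 * (w + 1) * (2 * c + 1) with hL
  set M : ℕ := w + (w + 1) * (2 * w + 1) + 1 with hM
  refine ⟨((4 * L * M : ℕ) : ℝ), fun V E _ _ ends k hl hV hk htw hconn => ?_⟩
  haveI : Nontrivial V := Fintype.one_lt_card_iff_nontrivial.1 hV
  obtain ⟨rk, N, h1, h2, h3, h4, h5⟩ := exists_peo ends w htw
  obtain ⟨G, he⟩ := exists_elim ends hl w k rk N h1 h2 h3 h4 h5 hconn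
  obtain ⟨p, hp, hh⟩ := G.exists_heavy hk
  have hk0 : (0 : ℝ) < k := by exact_mod_cast hk
  have hne : ∀ v, v ≠ G.z → 1 ≤ w ∧ (G.Bu p v (p v)).Nonempty := by
    intro v hv
    have := hh v hv
    refine ⟨Nat.pos_of_ne_zero ?_, Finset.card_pos.1 (Nat.pos_of_ne_zero ?_)⟩
    · rintro rfl; omega
    · intro h0; rw [h0] at this; omega
  obtain ⟨v₀, hv₀⟩ := exists_ne G.z
  have hw := (hne v₀ hv₀).1
  obtain ⟨e₀, -⟩ := (hne v₀ hv₀).2
  have hL0 : 0 < L := by positivity
  have hM0 : 1 ≤ M := by omega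
  by_cases hkL : k < L
  · have hex : ∀ v, ∃ e, v ≠ G.z → e ∈ G.Bu p v (p v) := by
      intro v
      by_cases hv : v = G.z
      · exact ⟨e₀, fun h => absurd hv h⟩
      · obtain ⟨e, he⟩ := (hne v hv).2
        exact ⟨e, fun _ => he⟩
    choose ev hev using hex
    refine ⟨_, G.tree hp ev hev ends he, fun S _ _ => ?_⟩
    have h6 : (cut ends ((univ.erase G.z).image ev) S).card ≤ (cut ends univ S).card :=
      Finset.card_le_card fun e h => (mem_cut (he e)).2 ⟨mem_univ _, ((mem_cut (he e)).1 h).2⟩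
    refine (Nat.cast_le.2 h6).trans (le_mul_of_one_le_left (by positivity) ?_)
    rw [le_div_iff₀ hk0, one_mul]
    exact_mod_cast (by nlinarith : k ≤ 4 * L * M)
  · push Not at hkL
    set μ := k / L with hμ
    have hμ1 : 1 ≤ μ := (Nat.le_div_iff_mul_le hL0).2 (by omega)
    have hLμ : L * μ ≤ k := Nat.mul_div_le k L
    have hk2 : k ≤ 2 * L * μ := by
      have := Nat.lt_mul_div_succ k hL0
      nlinarith
    have a1 : 3 * (w + 1) * μ ≤ k := le_trans (Nat.mul_le_mul_right μ (by nlinarith)) hLμ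
    have a2 : 2 * μ ≤ k := le_trans (Nat.mul_le_mul_right μ (by omega)) a1
    have hex : ∀ v, ∃ e, v ≠ G.z → e ∈ G.Bu p v (p v) ∧
        ∀ u, (u = v ∨ u = p v) → ∀ ρ S a, ¬ G.Wit v (G.cls p v u) μ e ρ S a := by
      intro v
      by_cases hv : v = G.z
      · exact ⟨e₀, fun h => absurd hv h⟩
      by_contra hcon
      push Not at hcon
      have b1 := hc G v (G.cls p v v) μ hμ1 a2
        (univ.filter fun e => ∃ ρ S a, G.Wit v (G.cls p v v) μ e ρ S a)
        fun e he => (Finset.mem_filter.1 he).2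
      have b2 := hc G v (G.cls p v (p v)) μ hμ1 a2
        (univ.filter fun e => ∃ ρ S a, G.Wit v (G.cls p v (p v)) μ e ρ S a)
        fun e he => (Finset.mem_filter.1 he).2
      have b3 : (G.Bu p v (p v)).card ≤ c * μ + c * μ := by
        refine le_trans (Finset.card_le_card fun e he => ?_)
          ((Finset.card_union_le _ _).trans (add_le_add b1 b2))
        obtain ⟨u, hu, hx⟩ := (hcon e).2 he
        rcases hu with rfl | rfl
        · exact Finset.mem_union_left _ (Finset.mem_filter.2 ⟨mem_univ _, hx⟩)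
        · exact Finset.mem_union_right _ (Finset.mem_filter.2 ⟨mem_univ _, hx⟩)
      have b4 := (hh v hv).trans (Nat.mul_le_mul_left w b3)
      have b5 : 3 * (w + 1) * (2 * c + 1) * μ ≤ w * (c * μ + c * μ) := hLμ.trans b4
      nlinarith [Nat.zero_le (w * c * μ), Nat.zero_le (c * μ), Nat.zero_le (w * μ)]
    choose ev hev using hex
    have hs : G.Sel p μ ev := hev
    refine ⟨_, G.tree hp ev (fun v hv => (hev v hv).1) ends he, fun S _ _ => ?_⟩
    have h6 := G.thin hp hh hs hw hμ1 a1 S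
    have h7 : (cut ends ((univ.erase G.z).image ev) S).card ≤
        (univ.filter fun v => v ≠ G.z ∧ G.cr S (ev v)).card := by
      refine le_trans (Finset.card_le_card fun e h => ?_) (Finset.card_image_le (f := ev))
      obtain ⟨h8, h9⟩ := (mem_cut (he e)).1 h
      obtain ⟨v, hv, rfl⟩ := Finset.mem_image.1 h8
      exact Finset.mem_image_of_mem _
        (Finset.mem_filter.2 ⟨mem_univ _, (Finset.mem_erase.1 hv).1, h9⟩)
    have h8 : G.dl S = cut ends univ S := by
      ext e
      rw [mem_cut (he e), Elim.dl, Finset.mem_filter]; rfl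
    rw [h8, ← hM] at h6
    rw [div_mul_eq_mul_div, le_div_iff₀ hk0]
    have h9 : (cut ends ((univ.erase G.z).image ev) S).card * k ≤
        4 * L * M * (cut ends univ S).card := by
      calc _ ≤ (univ.filter fun v => v ≠ G.z ∧ G.cr S (ev v)).card * (2 * L * μ) :=
            Nat.mul_le_mul h7 hk2
        _ = 2 * L * (μ * (univ.filter fun v => v ≠ G.z ∧ G.cr S (ev v)).card) := by ring
        _ ≤ 2 * L * (2 * M * (cut ends univ S).card) := Nat.mul_le_mul_left _ h6
        _ = _ := by ring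
    exact_mod_cast h9

end Vale.Agent.P061
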