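import Vale.Agent.P061.TreeP

namespace Vale.Agent.P061

open Finset

theorem exists_peo {V E : Type} [Fintype V] [DecidableEq V] (ends : E → Sym2 V) (w : ℕ)
    (h : TreewidthLE ends w) :
    ∃ (rk : V → ℕ) (N : V → Finset V), Function.Injective rk ∧ (∀ v, ∀ y ∈ N v, rk v < rk y) ∧
      (∀ v, (N v).card ≤ w) ∧ (∀ e x y, ends e = s(x, y) → rk x < rk y → y ∈ N x) ∧
      ∀ x, ∀ y ∈ N x, ∀ y' ∈ N x, rk y < rk y' → y' ∈ N y := by
  obtain ⟨ι, _, T, B, hT, hcard, hedge, hconn⟩ := h
  obtain ⟨dep, par, hpar⟩ := tree_parent T hT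
  have htop : ∀ v, ∃ t, v ∈ B t ∧ ∀ s, v ∈ B s → dep t ≤ dep s := fun v => by
    obtain ⟨⟨t, ht⟩⟩ := (hconn v).nonempty
    exact ⟨Function.argminOn dep {t | v ∈ B t} ⟨t, ht⟩,
      Function.argminOn_mem dep {t | v ∈ B t} ⟨t, ht⟩,
      fun s hs => Function.argminOn_le dep {t | v ∈ B t} hs⟩
  choose top htop1 htop2 using htop
  have hstrict : ∀ v t, v ∈ B t → (∀ s ∈ {t | v ∈ B t}, s ≠ t → dep t < dep s) → top v = t := by
    intro v t ht h1
    by_contra hne
    exact absurd (h1 (top v) (htop1 v) hne) (not_lt.mpr (htop2 v t ht))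
  have key : ∀ x y, dep (top y) ≤ dep (top x) → ∀ (n : ℕ) (t : ι), dep t = n → x ∈ B t →
      y ∈ B t → y ∈ B (top x) := by
    intro x y hxy n
    induction n using Nat.strong_induction_on with
    | _ n ih =>
      intro t ht hx hy
      rcases hpar _ (hconn x) t hx with h1 | ⟨h1, h2⟩
      · rw [hstrict x t hx h1]; exact hy
      · rcases hpar _ (hconn y) t hy with h3 | ⟨h3, -⟩
        · have h4 := htop2 x _ h1
          rw [hstrict y t hy h3] at hxy
          omega
        · exact ih _ (ht ▸ h2) _ rfl h1 h3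
  obtain ⟨Dm, hDm⟩ : ∃ Dm : ℕ, ∀ v, dep (top v) ≤ Dm :=
    ⟨univ.sup fun v => dep (top v), fun v => le_sup (f := fun v => dep (top v)) (mem_univ v)⟩
  obtain ⟨rk, hrk⟩ : ∃ rk : V → ℕ, ∀ v,
      rk v = (Fintype.equivFin V v : ℕ) + Fintype.card V * (Dm - dep (top v)) := ⟨_, fun _ => rfl⟩
  have hinj : Function.Injective rk := by
    intro x y hxy
    have h1 := congrArg (· % Fintype.card V) hxy
    simp only [hrk, Nat.add_mul_mod_self_left, Nat.mod_eq_of_lt (Fin.is_lt _)] at h1
    exact (Fintype.equivFin V).injective (Fin.ext h1)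
  have hlt : ∀ x y, rk x < rk y → dep (top y) ≤ dep (top x) := by
    intro x y hxy
    by_contra hc
    have h1 : Dm - dep (top y) + 1 ≤ Dm - dep (top x) := by
      have := hDm x
      have := hDm y
      omega
    have h2 := Nat.mul_le_mul_left (Fintype.card V) h1
    have h3 := (Fintype.equivFin V y).is_lt
    rw [hrk, hrk] at hxy
    rw [mul_add, mul_one] at h2
    omega
  refine ⟨rk, fun v => (B (top v)).filter fun y => rk v < rk y, hinj,
    fun v y hy => (mem_filter.mp hy).2, fun v => ?_, fun e x y he hxy => ?_,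
    fun x y hy y' hy' hyy => ?_⟩
  · have h1 : ((B (top v)).filter fun y => rk v < rk y) ⊆ (B (top v)).erase v := by
      intro y hy
      obtain ⟨h2, h3⟩ := mem_filter.mp hy
      exact mem_erase.mpr ⟨fun h4 => by rw [h4] at h3; exact lt_irrefl _ h3, h2⟩
    have h2 := card_le_card h1
    rw [card_erase_of_mem (htop1 v)] at h2
    have := hcard (top v)
    exact h2.trans (by omega)
  · obtain ⟨t, ht⟩ := hedge e
    rw [he] at ht
    exact mem_filter.mpr ⟨key x y (hlt x y hxy) _ t rfl (ht x (Sym2.mem_mk_left x y))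
      (ht y (Sym2.mem_mk_right x y)), hxy⟩
  · exact mem_filter.mpr ⟨key y y' (hlt y y' hyy) _ (top x) rfl (mem_filter.mp hy).1
      (mem_filter.mp hy').1, hyy⟩

end Vale.Agent.P061
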