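import Vale.Agent.P061.Basic

namespace Vale.Agent.P061

open Finset

namespace Elim

variable {V E : Type} [Fintype V] [DecidableEq V] [Fintype E] [DecidableEq E] {w k : ℕ}
  (G : Elim V E w k)

variable {p : V → V}

theorem R_of_le (p : V → V) {t : ℕ} {x : V} (h : t ≤ G.rk x) : G.R p t x = x := by
  induction t with
  | zero => rfl
  | succ t ih =>
    have := ih (by omega)
    rw [R, this, if_neg (by omega)]

theorem R_stable (p : V → V) {t t' : ℕ} {x y : V} (h : G.R p t x = G.R p t y) (ht : t ≤ t') :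
    G.R p t' x = G.R p t' y := by
  induction ht with
  | refl => exact h
  | step _ ih => simp only [R, ih]

theorem R_congr {p p' : V → V} {t : ℕ} (h : ∀ y, G.rk y < t → p y = p' y) (x : V) :
    G.R p t x = G.R p' t x := by
  induction t with
  | zero => rfl
  | succ t ih =>
    have := ih fun y hy => h y (by omega)
    simp only [R, this]
    split_ifs with h1
    · exact h _ (by omega)
    · rfl

/-- versions with the hypothesis on `p` only below the time `t` -/
theorem R_ge' {t : ℕ} (hp : ∀ y, G.rk y < t → p y ∈ G.N y) (x : V) : t ≤ G.rk (G.R p t x) := by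
  induction t with
  | zero => exact Nat.zero_le _
  | succ t ih =>
    have := ih fun y hy => hp y (by omega)
    simp only [R]
    split_ifs with h1
    · have := G.N_lt _ _ (hp (G.R p t x) (by omega))
      omega
    · omega

theorem R_D' {t : ℕ} (hp : ∀ y, G.rk y < t → p y ∈ G.N y) (x : V) : x ∈ G.D (G.R p t x) := by
  induction t with
  | zero => exact G.self_mem x
  | succ t ih =>
    have := ih fun y hy => hp y (by omega)
    simp only [R]
    split_ifs with h1
    · exact G.D_sub _ _ (G.N_D _ _ (hp (G.R p t x) (by omega))) this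
    · exact this

theorem R_mem' {t : ℕ} (hp : ∀ y, G.rk y < t → p y ∈ G.N y) {v x : V} (ht : t ≤ G.rk v + 1)
    (hx : x ∈ G.D v ∨ x ∈ G.N v) : G.R p t x ∈ G.D v ∨ G.R p t x ∈ G.N v := by
  induction t with
  | zero => exact hx
  | succ t ih =>
    have := ih (fun y hy => hp y (by omega)) (by omega)
    simp only [R]
    split_ifs with h1
    · rcases this with h2 | h2
      · exact G.N_sub v _ h2 _ (hp _ (by omega))
      · have := G.N_lt _ _ h2
        omega
    · exact this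

theorem Pm.below {G : Elim V E w k} (hp : G.Pm p) {t : ℕ} (ht : t ≤ G.rk G.z) :
    ∀ y, G.rk y < t → p y ∈ G.N y := fun y hy =>
  hp y (by rintro rfl; omega)

theorem R_idem (hp : G.Pm p) {t : ℕ} (ht : t ≤ G.rk G.z) (x : V) :
    G.R p t (G.R p t x) = G.R p t x := 
  G.R_of_le p (G.R_ge' (hp.below ht) x)

theorem mem_Bu (hp : G.Pm p) {v : V} (hv : v ≠ G.z) {e : E} (h : e ∈ G.Bu p v (p v)) :
    G.lo e ∈ G.D v ∧ ((G.lo e ∈ G.cls p v v ∧ G.hi e ∈ G.cls p v (p v)) ∨
      (G.hi e ∈ G.cls p v v ∧ G.lo e ∈ G.cls p v (p v))) := by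
  have hb := hp.below (G.rk_le v)
  have hN := hp v hv
  have key : ∀ x, (x ∈ G.D v ∨ x ∈ G.N v) → G.R p (G.rk v) x = p v → x ∈ G.cls p v (p v) := by
    intro x hx h1
    refine Finset.mem_filter.2 ⟨mem_univ _, h1, ?_⟩
    rcases hx with hx | hx
    · exact Or.inl hx
    · right
      rw [← h1, G.R_of_le p (G.N_lt _ _ hx).le]
  rcases (Finset.mem_filter.1 h).2 with ⟨h1, h2⟩ | ⟨h1, h2⟩
  · have h3 : G.lo e ∈ G.D v := h1 ▸ G.R_D' hb (G.lo e)
    exact ⟨h3, Or.inl ⟨Finset.mem_filter.2 ⟨mem_univ _, h1, Or.inl h3⟩,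
      key _ (G.hi_of_lo h3) h2⟩⟩
  · have h3 : G.hi e ∈ G.D v := h1 ▸ G.R_D' hb (G.hi e)
    have h4 := G.lo_of_hi h3
    exact ⟨h4, Or.inr ⟨Finset.mem_filter.2 ⟨mem_univ _, h1, Or.inl h3⟩, key _ (Or.inl h4) h2⟩⟩

theorem root_mem (hp : G.Pm p) {v u : V} (hv : v ≠ G.z) (hu : u = v ∨ u = p v) :
    u ∈ G.cls p v u := by
  refine Finset.mem_filter.2 ⟨mem_univ _, G.R_of_le p ?_, Or.inr rfl⟩
  rcases hu with rfl | rfl
  · exact le_rfl
  · exact (G.N_lt _ _ (hp v hv)).le

lemma heavy_step (hk : 1 ≤ k) {v : V} (hv : v ≠ G.z) (hp : ∀ y, G.rk y < G.rk v → p y ∈ G.N y) :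
    ∃ u ∈ G.N v, k ≤ w * (G.Bu p v u).card := by
  set C : Finset V := univ.filter fun x => G.R p (G.rk v) x = v with hC
  have hvC : v ∈ C := Finset.mem_filter.2 ⟨mem_univ _, G.R_of_le p le_rfl⟩
  have hzC : G.z ∉ C := fun h => hv (by
    have := (Finset.mem_filter.1 h).2
    rw [G.R_of_le p (G.rk_le v)] at this
    exact this.symm)
  have h1 := G.conn C ⟨v, hvC⟩ fun e => hzC (e ▸ mem_univ _)
  have root : ∀ x, (x ∈ G.D v ∨ x ∈ G.N v) → x ∉ C → G.R p (G.rk v) x ∈ G.N v := by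
    intro x hx hxC
    rcases G.R_mem' hp (Nat.le_succ _) hx with h | h
    · have e : G.R p (G.rk v) x = v := G.rk_inj (le_antisymm (G.D_le _ _ h) (G.R_ge' hp x))
      exact (hxC (Finset.mem_filter.2 ⟨mem_univ _, e⟩)).elim
    · exact h
  have hCD : ∀ x ∈ C, x ∈ G.D v := fun x hx => (Finset.mem_filter.1 hx).2 ▸ G.R_D' hp x
  have h2 : (univ.filter fun e => ¬ (G.lo e ∈ C ↔ G.hi e ∈ C)) ⊆
      (G.N v).biUnion fun u => G.Bu p v u := by
    intro e he
    have he' := (Finset.mem_filter.1 he).2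
    by_cases hlo : G.lo e ∈ C
    · have hhi : G.hi e ∉ C := by tauto
      exact Finset.mem_biUnion.2 ⟨_, root _ (G.hi_of_lo (hCD _ hlo)) hhi,
        Finset.mem_filter.2 ⟨mem_univ _, Or.inl ⟨(Finset.mem_filter.1 hlo).2, rfl⟩⟩⟩
    · have hhi : G.hi e ∈ C := by tauto
      exact Finset.mem_biUnion.2 ⟨_, root _ (Or.inl (G.lo_of_hi (hCD _ hhi))) hlo,
        Finset.mem_filter.2 ⟨mem_univ _, Or.inr ⟨(Finset.mem_filter.1 hhi).2, rfl⟩⟩⟩
  have h3 : k ≤ ∑ u ∈ G.N v, (G.Bu p v u).card :=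
    h1.trans ((Finset.card_le_card h2).trans Finset.card_biUnion_le)
  have hne : (G.N v).Nonempty := by
    rw [Finset.nonempty_iff_ne_empty]
    intro h0
    rw [h0, Finset.sum_empty] at h3
    omega
  obtain ⟨u, hu, hmax⟩ := Finset.exists_max_image (G.N v) (fun u => (G.Bu p v u).card) hne
  refine ⟨u, hu, h3.trans ((Finset.sum_le_card_nsmul _ _ _ hmax).trans ?_)⟩
  rw [smul_eq_mul]
  exact Nat.mul_le_mul_right _ (G.N_card v)

lemma Bu_congr {p p' : V → V} {v : V} (h : ∀ y, G.rk y < G.rk v → p y = p' y) (u : V) :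
    G.Bu p v u = G.Bu p' v u := by
  simp only [Bu, G.R_congr h]

theorem exists_heavy (hk : 1 ≤ k) : ∃ p : V → V, G.Pm p ∧ G.Heavy p := by
  have main : ∀ t, ∃ p : V → V, ∀ v, v ≠ G.z → G.rk v < t →
      p v ∈ G.N v ∧ k ≤ w * (G.Bu p v (p v)).card := by
    intro t
    induction t with
    | zero => exact ⟨id, fun v _ h => absurd h (Nat.not_lt_zero _)⟩
    | succ t ih =>
      obtain ⟨p, hp⟩ := ih
      by_cases hex : ∃ v, v ≠ G.z ∧ G.rk v = t
      · obtain ⟨v, hv, hvt⟩ := hex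
        obtain ⟨u, hu, hk'⟩ := G.heavy_step (p := p) hk hv fun y hy =>
          (hp y (by rintro rfl; exact absurd (G.rk_le v) (not_le.2 hy)) (by omega)).1
        refine ⟨Function.update p v u, fun x hx hxt => ?_⟩
        have hc : ∀ y, G.rk y < G.rk x → Function.update p v u y = p y := fun y hy =>
          Function.update_of_ne (by rintro rfl; omega) _ _
        rw [G.Bu_congr hc]
        by_cases hxv : x = v
        · subst hxv
          rw [Function.update_self]
          exact ⟨hu, hk'⟩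
        · rw [Function.update_of_ne hxv]
          have : G.rk x ≠ t := fun e => hxv (G.rk_inj (e.trans hvt.symm))
          exact hp x hx (by omega)
      · refine ⟨p, fun x hx hxt => hp x hx ?_⟩
        have : G.rk x ≠ t := fun e => hex ⟨x, hx, e⟩
        omega
  obtain ⟨p, hp⟩ := main (G.rk G.z)
  exact ⟨p, fun v hv => (hp v hv (G.rk_lt_z hv)).1, fun v hv => (hp v hv (G.rk_lt_z hv)).2⟩

end Elim

end Vale.Agent.P061
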