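import Vale.Agent.P061.RBasic

namespace Vale.Agent.P061

open Finset

namespace Elim

variable {V E : Type} [Fintype V] [DecidableEq V] [Fintype E] [DecidableEq E] {w k : ℕ}
  (G : Elim V E w k)

variable {p : V → V}

theorem sp_succ (p : V → V) (t : ℕ) (x : V) : G.R p (t + 1) x =
    if G.rk (G.R p t x) = t then p (G.R p t x) else G.R p t x := rfl

theorem sp_mem_cls {v u x : V} :
    x ∈ G.cls p v u ↔ G.R p (G.rk v) x = u ∧ (x ∈ G.D v ∨ x = u) := by
  simp only [cls, mem_filter, mem_univ, true_and]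

theorem sp_mem_Bu {v u : V} {e : E} : e ∈ G.Bu p v u ↔
    (G.R p (G.rk v) (G.lo e) = v ∧ G.R p (G.rk v) (G.hi e) = u) ∨
    (G.R p (G.rk v) (G.hi e) = v ∧ G.R p (G.rk v) (G.lo e) = u) := by
  simp only [Bu, mem_filter, mem_univ, true_and]

theorem sp_split (hp : G.Pm p) (hh : G.Heavy p) {v u : V} {μ : ℕ} {S : Finset V} (hw : 1 ≤ w)
    (hμ : w * μ ≤ k)
    (h : (univ.filter fun e => G.cr S e ∧ G.lo e ∈ G.cls p v u ∧ G.hi e ∈ G.cls p v u).card < μ)
    (t : ℕ) (ht : t ≤ G.rk v) : ∀ x ∈ G.cls p v u, (x ∈ S ↔ G.R p t x ∈ S) := by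
  induction t with
  | zero => intro x _; exact Iff.rfl
  | succ t ih =>
    have ih' := ih (by omega)
    intro x hx
    rw [ih' x hx, sp_succ]
    split_ifs with hc
    swap
    · exact Iff.rfl
    obtain ⟨hx1, hx2⟩ := G.sp_mem_cls.1 hx
    obtain ⟨y, hy⟩ : ∃ y, y = G.R p t x := ⟨_, rfl⟩
    rw [← hy] at hc ⊢
    have hvz := G.rk_le v
    have hyz : y ≠ G.z := by rintro rfl; omega
    have hpy : G.rk y < G.rk (p y) := G.N_lt _ _ (hp y hyz)
    have hyD : y ∈ G.D v := by
      rcases hx2 with a1 | a1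
      · rcases G.R_mem' (hp.below (show t ≤ G.rk G.z by omega)) (show t ≤ G.rk v + 1 by omega)
          (Or.inl a1) with a2 | a2
        · rwa [← hy] at a2
        · rw [← hy] at a2
          have := G.N_lt _ _ a2
          omega
      · have a2 := G.R_ge' (hp.below hvz) x
        rw [hx1, ← a1] at a2
        rw [G.R_of_le p (show t ≤ G.rk x by omega)] at hy
        rw [hy] at hc
        omega
    have hA : ∀ a, G.R p t a = y → G.R p (G.rk v) a = u := by
      intro a ha
      rw [← hx1]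
      exact G.R_stable p (ha.trans hy) (by omega)
    have hB : ∀ a, G.R p t a = p y → G.R p (G.rk v) a = u := by
      intro a ha
      rw [← hx1]
      refine G.R_stable p (t := t + 1) ?_ ht
      rw [sp_succ, sp_succ, ha, ← hy, if_neg (by omega), if_pos hc]
    by_contra hne
    have hsub : G.Bu p y (p y) ⊆
        univ.filter fun e => G.cr S e ∧ G.lo e ∈ G.cls p v u ∧ G.hi e ∈ G.cls p v u := by
      intro e he
      have a1 : G.lo e ∈ G.D v := G.D_sub v y hyD (G.mem_Bu hp hyz he).1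
      have a2 := G.sp_mem_Bu.1 he
      rw [hc] at a2
      have a3 : G.R p (G.rk v) (G.lo e) = u := a2.elim (fun a => hA _ a.1) (fun a => hB _ a.2)
      have a4 : G.R p (G.rk v) (G.hi e) = u := a2.elim (fun a => hB _ a.2) (fun a => hA _ a.1)
      have a5 : G.lo e ∈ G.cls p v u := G.sp_mem_cls.2 ⟨a3, Or.inl a1⟩
      have a6 : G.hi e ∈ G.cls p v u := by
        refine G.sp_mem_cls.2 ⟨a4, ?_⟩
        rcases G.hi_of_lo a1 with b | b
        · exact Or.inl b
        · rw [G.R_of_le p (G.N_lt _ _ b).le] at a4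
          exact Or.inr a4
      refine mem_filter.2 ⟨mem_univ _, ?_, a5, a6⟩
      unfold cr
      rw [ih' _ a5, ih' _ a6]
      rcases a2 with ⟨b1, b2⟩ | ⟨b1, b2⟩
      · rw [b1, b2]; exact hne
      · rw [b1, b2]; exact fun b => hne b.symm
    have c1 := (card_le_card hsub).trans_lt h
    have c2 := hh y hyz
    have c3 : w * (G.Bu p y (p y)).card < w * μ := Nat.mul_lt_mul_of_pos_left c1 (by omega)
    omega

theorem split (hp : G.Pm p) (hh : G.Heavy p) {v u : V} {μ : ℕ} {S : Finset V} (hw : 1 ≤ w)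
    (hμ : w * μ ≤ k)
    (h : (univ.filter fun e => G.cr S e ∧ G.lo e ∈ G.cls p v u ∧ G.hi e ∈ G.cls p v u).card < μ) :
    ∀ x ∈ G.cls p v u, (x ∈ S ↔ u ∈ S) := by
  intro x hx
  rw [G.sp_split hp hh hw hμ h (G.rk v) le_rfl x hx, (G.sp_mem_cls.1 hx).1]

theorem split' (hp : G.Pm p) (hh : G.Heavy p) {v u : V} {μ : ℕ} {S : Finset V} {ρ : Option V}
    (hw : 1 ≤ w) (hμ : w * μ ≤ k) (hv : v ≠ G.z) (hu : u = v ∨ u = p v)
    (hd : Disjoint (G.cls p v u) (G.HD ρ ∪ G.HN ρ)) (h : G.cost v ρ S < μ) :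
    ∀ x ∈ G.cls p v u, (x ∈ S ↔ u ∈ S) := by
  refine G.split hp hh hw hμ (lt_of_le_of_lt (card_le_card fun e he => ?_) h)
  simp only [mem_filter, mem_univ, true_and] at he ⊢
  obtain ⟨h1, h2, h3⟩ := he
  refine ⟨h1, ?_, fun h4 => disjoint_left.1 hd h2 (mem_union_left _ h4)⟩
  rcases (G.sp_mem_cls.1 h3).2 with a | a
  · exact G.lo_of_hi a
  · rcases (G.sp_mem_cls.1 h2).2 with b | b
    · exact b
    · have := G.lo_lt e
      rw [a, b] at this
      omega

theorem sp_span (hp : G.Pm p) (r : V) (T : Finset V) (hr : G.rk r < G.rk G.z)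
    (hT : ∀ v ∈ T, v ≠ G.z ∧ r ∈ G.D v ∧ r ≠ v ∧ G.Spans p v (some r)) (t : ℕ)
    (ht : G.rk r + 1 ≤ t) : ((G.D r ∪ G.N r).image (G.R p t)).card +
      (T.filter fun v => G.rk v < t).card ≤ w := by
  induction t, ht using Nat.le_induction with
  | base =>
    have h1 : (T.filter fun v => G.rk v < G.rk r + 1) = ∅ := by
      refine filter_eq_empty_iff.2 fun v hv => ?_
      have := G.rk_lt_of_D (hT v hv).2.1 (hT v hv).2.2.1
      omega
    rw [h1, card_empty, add_zero]
    refine le_trans (card_le_card fun y hy => ?_) (G.N_card r)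
    obtain ⟨x, hx, rfl⟩ := mem_image.1 hy
    have hb := hp.below (show G.rk r + 1 ≤ G.rk G.z from hr)
    rcases G.R_mem' hb le_rfl (mem_union.1 hx) with a | a
    · have a1 := G.D_le _ _ a
      have a2 := G.R_ge' hb x
      omega
    · exact a
  | succ t _ ih =>
    have h1 : (G.D r ∪ G.N r).image (G.R p (t + 1)) =
        ((G.D r ∪ G.N r).image (G.R p t)).image (fun y => if G.rk y = t then p y else y) := by
      rw [image_image]
      rfl
    rw [h1]
    by_cases hc : ∃ v ∈ T, G.rk v = t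
    · obtain ⟨v, hv, rfl⟩ := hc
      obtain ⟨hz, -, -, s1, s2⟩ := hT v hv
      have hlt : G.rk v < G.rk (p v) := G.N_lt _ _ (hp v hz)
      obtain ⟨x1, a1, b1⟩ := not_disjoint_iff.1 s1
      obtain ⟨x2, a2, b2⟩ := not_disjoint_iff.1 s2
      have m1 : v ∈ (G.D r ∪ G.N r).image (G.R p (G.rk v)) :=
        mem_image.2 ⟨x1, b1, (G.sp_mem_cls.1 a1).1⟩
      have m2 : p v ∈ (G.D r ∪ G.N r).image (G.R p (G.rk v)) :=
        mem_image.2 ⟨x2, b2, (G.sp_mem_cls.1 a2).1⟩
      have h2 : (((G.D r ∪ G.N r).image (G.R p (G.rk v))).image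
          (fun y => if G.rk y = G.rk v then p y else y)).card <
          ((G.D r ∪ G.N r).image (G.R p (G.rk v))).card := by
        refine lt_of_le_of_ne card_image_le fun he => ?_
        have := card_image_iff.1 he (mem_coe.2 m1) (mem_coe.2 m2)
          (by simp only [if_true, if_neg hlt.ne'])
        rw [← this] at hlt
        omega
      have h3 : (T.filter fun u => G.rk u < G.rk v + 1).card ≤
          (T.filter fun u => G.rk u < G.rk v).card + 1 := by
        refine le_trans (card_le_card fun u hu => ?_) (card_insert_le v _)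
        rw [mem_filter] at hu
        rw [mem_insert, mem_filter]
        by_cases e : G.rk u = G.rk v
        · exact Or.inl (G.rk_inj e)
        · exact Or.inr ⟨hu.1, by omega⟩
      omega
    · have h2 : (T.filter fun u => G.rk u < t + 1) = T.filter fun u => G.rk u < t := by
        refine filter_congr fun u hu => ?_
        have : G.rk u ≠ t := fun e => hc ⟨u, hu, e⟩
        omega
      rw [h2]
      exact le_trans (Nat.add_le_add_right card_image_le _) ih

theorem span_le (hp : G.Pm p) (r : V) (T : Finset V)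
    (hT : ∀ v ∈ T, v ≠ G.z ∧ r ∈ G.D v ∧ r ≠ v ∧ G.Spans p v (some r)) : T.card ≤ w := by
  rcases T.eq_empty_or_nonempty with rfl | ⟨v, hv⟩
  · simp
  have hr : G.rk r < G.rk G.z :=
    (G.rk_lt_of_D (hT v hv).2.1 (hT v hv).2.2.1).trans_le (G.rk_le v)
  have h := G.sp_span hp r T hr hT (G.rk G.z + 1) (by omega)
  rw [filter_true_of_mem (fun u _ => Nat.lt_succ_of_le (G.rk_le u))] at h
  omega

end Elim

end Vale.Agent.P061
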