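import Vale.Agent.P061.Defs

namespace Vale.Agent.P061

open Finset

theorem treeP_edge {ι : Type} (T : SimpleGraph ι) (hT : T.IsTree) :
    ∃ (dep : ι → ℕ) (par : ι → ι), ∀ s t, T.Adj s t →
      (par t = s ∧ dep t = dep s + 1) ∨ (par s = t ∧ dep s = dep t + 1) := by
  obtain ⟨r⟩ := hT.connected.nonempty
  choose P hP using fun t => (hT.existsUnique_path r t).exists
  have key : ∀ s t (h : T.Adj s t), s ∈ (P t).support →
      (P t).penultimate = s ∧ (P t).length = (P s).length + 1 := by
    intro s t h hs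
    rw [hT.isAcyclic.path_concat (hP s) (hP t) h hs]
    simp
  refine ⟨fun t => (P t).length, fun t => (P t).penultimate, fun s t h => ?_⟩
  by_cases hs : s ∈ (P t).support
  · exact Or.inl (key s t h hs)
  · exact Or.inr (key t s h.symm
      (hT.isAcyclic.mem_support_of_ne_mem_support_of_adj_of_isPath (hP s) (hP t) h hs))

theorem tree_parent {ι : Type} (T : SimpleGraph ι) (hT : T.IsTree) :
    ∃ (dep : ι → ℕ) (par : ι → ι), ∀ A : Set ι, (T.induce A).Connected → ∀ t ∈ A,
      (∀ s ∈ A, s ≠ t → dep t < dep s) ∨ (par t ∈ A ∧ dep (par t) < dep t) := by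
  obtain ⟨dep, par, H⟩ := treeP_edge T hT
  refine ⟨dep, par, fun A hA t ht => ?_⟩
  by_cases h : par t ∈ A ∧ dep (par t) < dep t
  · exact Or.inr h
  left
  have inv : ∀ s : A, Relation.ReflTransGen (T.induce A).Adj ⟨t, ht⟩ s →
      ∃ i, par^[i] s = t ∧ dep s = dep t + i := by
    intro s hs
    induction hs with
    | refl => exact ⟨0, rfl, rfl⟩
    | @tail a b _ hab ih =>
      obtain ⟨i, h1, h2⟩ := ih
      rcases H a b hab with ⟨e1, e2⟩ | ⟨e1, e2⟩
      · exact ⟨i + 1, by rw [Function.iterate_succ_apply, e1, h1], by omega⟩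
      · cases i with
        | zero =>
          have e : (a : ι) = t := h1
          rw [e] at e1 e2
          exact absurd ⟨e1 ▸ b.2, by rw [e1]; omega⟩ h
        | succ j =>
          rw [Function.iterate_succ_apply, e1] at h1
          exact ⟨j, h1, by omega⟩
  intro s hs hne
  obtain ⟨i, h1, h2⟩ := inv ⟨s, hs⟩
    ((SimpleGraph.reachable_iff_reflTransGen _ _).mp (hA.preconnected ⟨t, ht⟩ ⟨s, hs⟩))
  cases i with
  | zero => exact absurd h1 hne
  | succ j =>
    have h3 : dep s = dep t + (j + 1) := h2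
    omega

end Vale.Agent.P061
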